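import Crest.Agent.S0122H.Facet2

set_option autoImplicit false

namespace Crest.Agent.S0122H

open Finset Filter

def boxZ (n m : ℕ) : Set (ℕ → ℤ) := {ζ | (∀ j, |ζ j| ≤ m) ∧ ∀ j, n ≤ j → ζ j = 0}

lemma finite_boxZ (n m : ℕ) : (boxZ n m).Finite := by
  set F : (Fin n → Set.Icc (-(m:ℤ)) m) → (ℕ → ℤ) :=
    fun f j => if h : j < n then (f ⟨j, h⟩ : ℤ) else 0 with hF
  apply (Set.finite_range F).subset
  rintro ζ ⟨h1, h2⟩
  refine ⟨fun j => ⟨ζ j, abs_le.mp (h1 j)⟩, ?_⟩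
  funext j
  by_cases hj : j < n
  · simp [hF, hj]
  · simp [hF, hj, h2 j (by omega)]

def box (n m : ℕ) : Set (ℕ → ℝ) :=
  {v | ∃ ζ ∈ boxZ n m, ∃ i < n, ζ i ≠ 0 ∧ (∀ j, i < j → ζ j = 0) ∧ v = fun j => (ζ j : ℝ) / ζ i}

lemma finite_box (n m : ℕ) : (box n m).Finite := by
  apply (((finite_boxZ n m).prod (Set.finite_Iio n)).image
    (fun x : (ℕ → ℤ) × ℕ => (fun j => (x.1 j : ℝ) / x.1 x.2 : ℕ → ℝ))).subset
  rintro v ⟨ζ, hζ, i, hi, hne, hz, rfl⟩
  exact ⟨(ζ, i), ⟨hζ, hi⟩, rfl⟩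

lemma box_level {n m : ℕ} : ∀ v ∈ box n m, ∃ j < n, HasLevel v j := by
  rintro v ⟨ζ, hζ, i, hi, hne, hz, rfl⟩
  refine ⟨i, hi, ?_, ?_⟩
  · have : (ζ i : ℝ) ≠ 0 := by exact_mod_cast hne
    simp [this]
  · intro j hj
    simp [hz j hj]

lemma tie_mem_box {n m j : ℕ} (hj1 : 1 ≤ j) (hj : j < n) (hm : 1 ≤ m) : tie j ∈ box n m := by
  refine ⟨fun i => if i = j then 1 else if i + 1 = j then -1 else 0, ⟨?_, ?_⟩, j, hj, ?_, ?_, ?_⟩
  · intro i
    have hm' : (1:ℤ) ≤ m := by exact_mod_cast hm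
    by_cases h1 : i = j
    · simp [h1, hm]
    · by_cases h2 : i + 1 = j
      · simp only [h1, if_false, h2, if_true]
        simpa using hm'
      · simp [h1, h2]
  · intro i hi
    simp [show i ≠ j by omega, show i + 1 ≠ j by omega]
  · simp
  · intro i hi
    simp [show i ≠ j by omega, show i + 1 ≠ j by omega]
  · funext i
    simp only [if_true, Int.cast_one, div_one, tie]
    split_ifs <;> simp

lemma exists_par (n : ℕ) (hn : 1 ≤ n) (m : ℕ) : ∃ P : Par, P.n = n ∧ (m : ℝ) * P.n ≤ P.B ∧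
    ∀ ζ : ℕ → ℤ, (∀ j, |ζ j| ≤ m) → (∀ j, P.n ≤ j → ζ j = 0) → ∀ i, i < P.n → ζ i ≠ 0 →
    (∀ j, i < j → ζ j = 0) → (fun j => (ζ j : ℝ) / ζ i) ∈ P.V := by
  obtain ⟨V, θ, hVfin, hθ0, hθ1, hsub, hVl, hcl⟩ := exists_closure n (box n (m+1))
    (finite_box n (m+1)) box_level
  have hnR : (1:ℝ) ≤ n := by exact_mod_cast hn
  have hB1 : (1:ℝ) ≤ (m+1) * n := by
    have : (0:ℝ) ≤ m := Nat.cast_nonneg m
    nlinarith
  refine ⟨{ n := n, V := V, θ := θ, ρ := θ^n / (16 * ((m+1) * n)), B := (m+1) * n,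
            hVfin := hVfin, hVl := hVl, hθ0 := hθ0, hθ1 := hθ1, hρ0 := ?_, hB := hB1,
            hρ1 := ?_, hclosed := hcl, htie := ?_ }, rfl, ?_, ?_⟩
  · have : 0 < θ^n := pow_pos hθ0 _
    positivity
  · rw [mul_div_cancel₀]
    positivity
  · intro j hj1 hj
    exact hsub (tie_mem_box hj1 hj (by omega))
  · show (m:ℝ) * n ≤ (m+1) * n
    nlinarith
  · intro ζ h1 h2 i hi hne hz
    apply hsub
    refine ⟨ζ, ⟨fun j => ?_, h2⟩, i, hi, hne, hz, rfl⟩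
    have := h1 j
    push_cast
    omega

noncomputable def nrm {n : ℕ} (x : Idx n) : Fin n → ℝ :=
  fun i => ∑ j : Fin x.1.1, if x.1.2 j = i then x.2.2.2.1 j else 0

lemma nrm_sum {n : ℕ} (x : Idx n) (y : Fin n → ℝ) : ∑ i, nrm x i * y i = LHS x y := by
  unfold nrm LHS
  simp_rw [sum_mul]
  rw [sum_comm]
  apply sum_congr rfl
  intro j _
  simp [ite_mul]

lemma contDiff_hfun (P : Par) (Q : ℝ) (x : Idx P.n) : ContDiff ℝ 1 (hfun P Q x) := by
  unfold hfun cost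
  fun_prop

theorem exists_family (n : ℕ) (hn : 1 ≤ n) (m : ℕ) (M : ℝ) :
    ∃ (ι : Type) (_ : Finite ι) (N : ι → Fin n → ℝ) (h : ι → ℝ → ℝ) (Λ₀ : ℝ),
      (∀ i, ContDiff ℝ 1 (h i)) ∧
      (∀ Λ, Λ₀ ≤ Λ → ∀ x : Fin n → ℝ, (∀ i, ∑ j, N i j * x j ≤ h i Λ) →
        (∀ j, 0 < x j) ∧ (∀ j, x j ≤ n * Real.exp Λ) ∧
        ∀ i, ∑ j, N i j * x j = h i Λ → ∀ ξ : Fin n → ℤ, (∀ j, |ξ j| ≤ m) →
          0 < ∑ j, N i j * (ξ j : ℝ) → M ≤ ∑ j, ξ j * Real.log (x j)) ∧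
      (∀ x : Fin n → ℝ, (∀ j, 0 < x j) → ∀ᶠ Λ in atTop, ∀ i, ∑ j, N i j * x j ≤ h i Λ) := by
  obtain ⟨P, rfl, hPB, hbox⟩ := exists_par n hn m
  have hρ0 := P.hρ0
  have hB1 := P.hB
  have hd0 : 0 < dl P.n P.ρ := dl_pos hρ0
  set Q : ℝ := 4 * P.B / dl P.n P.ρ + 2 with hQ
  have hQ2 : 2 ≤ Q := by
    have : 0 ≤ 4 * P.B / dl P.n P.ρ := by positivity
    linarith
  set A : ℝ := Q ^ P.n with hA
  have hA1 : 1 ≤ A := one_le_pow₀ (by linarith)
  have hdQ : 4 * P.B ≤ dl P.n P.ρ * Q := by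
    rw [hQ, mul_add, mul_div_cancel₀ _ hd0.ne']
    linarith
  have htend1 : Tendsto (fun Λ : ℝ => Real.exp (Λ * (dl P.n P.ρ / 4))) atTop atTop :=
    Real.tendsto_exp_atTop.comp (tendsto_id.atTop_mul_const (by positivity))
  have htend2 : Tendsto (fun Λ : ℝ => dl P.n P.ρ * Λ) atTop atTop :=
    tendsto_id.const_mul_atTop hd0
  have hev : ∀ᶠ Λ in atTop, Consts P A Q M Λ m := by
    filter_upwards [eventually_gt_atTop (0:ℝ), htend1.eventually_ge_atTop ((A + 4) * P.n),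
      htend1.eventually_ge_atTop (P.n / dl P.n P.ρ),
      Real.tendsto_exp_atTop.eventually_ge_atTop (2 * (A + 4) * P.n),
      htend2.eventually_ge_atTop M] with Λ h1 h2 h3 h4 h5
    exact ⟨hn, hA1, by linarith, le_rfl, hdQ, hQ2, hPB, hbox, h1, h2, by
      rw [div_le_iff₀ hd0] at h3; linarith, h4, h5⟩
  obtain ⟨Λ₀, hΛ₀⟩ := eventually_atTop.mp hev
  refine ⟨{x : Idx P.n // Adm P (-(A+3)) x}, (finite_adm P (-(A+3))).to_subtype,
    fun x => nrm x.1, fun x => hfun P Q x.1, Λ₀, fun x => contDiff_hfun P Q x.1, ?_, ?_⟩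
  · intro Λ hΛ y hy
    have C := hΛ₀ Λ hΛ
    have hK : InK P Q (-(A+3)) Λ y := by
      intro x hx
      have := hy ⟨x, hx⟩
      rw [nrm_sum] at this
      exact this
    have hpos : ∀ i, 0 < y i := fun i => lt_of_lt_of_le (Real.exp_pos _) (inK_lower hn hK i)
    refine ⟨hpos, inK_upper hn (by linarith) C.hΛ0.le hK (fun i => (hpos i).le), ?_⟩
    rintro ⟨x, hx⟩ hact ξ hξ hξpos
    rw [nrm_sum] at hact hξpos
    exact facet C hK hx hact ξ hξ hξpos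
  · intro y hy
    have hfin : Finite {x : Idx P.n // Adm P (-(A+3)) x} := (finite_adm P (-(A+3))).to_subtype
    rw [eventually_all]
    rintro ⟨⟨⟨k, σ⟩, c, p, w, τ⟩, hx⟩
    simp only [nrm_sum]
    obtain ⟨hk1, hkn, hσ, hc, hpk, hv⟩ := hx
    simp only at hk1 hkn hσ hc hpk hv
    simp only [LHS, hfun]
    have ha1 : 1 ≤ scl Q P.n k := scl_ge_one (by linarith) _ _
    rcases hc with hc | ⟨hc, hkn'⟩
    · -- c = -1
      have htc : -(A+3) ≤ c := by rw [hc]; linarith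
      have hneg : ∑ j : Fin k, w j * y (σ j) < 0 := by
        apply sum_neg
        · intro j _
          have h1 := hv.le htc j
          have h2 := hy (σ j)
          nlinarith
        · exact ⟨⟨0, hk1⟩, mem_univ _⟩
      have htend3 : Tendsto (fun Λ : ℝ => Real.exp (-(Λ * scl Q P.n k))) atTop (nhds 0) :=
        Real.tendsto_exp_neg_atTop_nhds_zero.comp (tendsto_id.atTop_mul_const (by linarith))
      filter_upwards [htend3.eventually_le_const (show 0 < -(∑ j : Fin k, w j * y (σ j)) by linarith)]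
        with Λ h1
      have h2 := cost_nonneg P (Λ * scl Q P.n k) p w τ
      rw [hc]
      simp only [neg_mul, one_mul]
      linarith
    · have hs : scl Q P.n k = 1 := by rw [hkn', scl_self]
      filter_upwards [Real.tendsto_exp_atTop.eventually_ge_atTop (∑ j : Fin k, w j * y (σ j))]
        with Λ h1
      have h2 := cost_nonneg P (Λ * scl Q P.n k) p w τ
      rw [hc, hs]
      simp only [one_mul, mul_one]
      rw [hs] at h2
      simp only [mul_one] at h2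
      linarith

end Crest.Agent.S0122H
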