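import Crest.Agent.S0122H.Field
import Crest.Agent.S0122H.Family

set_option autoImplicit false

namespace Crest.Agent.S0122H

open Set Filter Topology Crest.AnalysisR.MassAction
open scoped NNReal

noncomputable def dot {d : ℕ} (N x : Fin d → ℝ) : ℝ := ∑ j, N j * x j

lemma dot_continuous {d : ℕ} (N : Fin d → ℝ) : Continuous (dot N) := by
  unfold dot; fun_prop

lemma dot_hasDeriv {d : ℕ} (N : Fin d → ℝ) {x : ℝ → Fin d → ℝ} {v : Fin d → ℝ} {s : Set ℝ} {t : ℝ}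
    (h : HasDerivWithinAt x v s t) : HasDerivWithinAt (fun t => dot N (x t)) (dot N v) s t := by
  unfold dot
  have h1 := hasDerivWithinAt_pi.mp h
  apply HasDerivWithinAt.fun_sum
  intro j _
  exact (h1 j).const_mul (N j)

/-- the data we work with -/
structure Fam (d : ℕ) (R : Network d) (k : (Fin d → ℕ) × (Fin d → ℕ) → ℝ) (c : Fin d → ℝ)
    (ι : Type) where
  N : ι → Fin d → ℝ
  h : ι → ℝ → ℝ
  Λ0 : ℝ
  hCD : ∀ i, ContDiff ℝ 1 (h i)
  hpos : ∀ Λ, Λ0 ≤ Λ → ∀ x : Fin d → ℝ, (∀ i, dot (N i) x ≤ h i Λ) → ∀ j, 0 < x j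
  hbd : ∀ Λ, Λ0 ≤ Λ → ∀ x : Fin d → ℝ, (∀ i, dot (N i) x ≤ h i Λ) → ∀ j, x j ≤ d * Real.exp Λ
  hneg : ∀ Λ, Λ0 ≤ Λ → ∀ x : Fin d → ℝ, (∀ i, dot (N i) x ≤ h i Λ) → ∀ i, dot (N i) x = h i Λ →
    (∀ r ∈ R, phi (N i) r.2 - phi (N i) r.1 = 0) ∨ dot (N i) (field R k x) < 0
  hc : ∀ Λ, Λ0 ≤ Λ → ∀ i, dot (N i) c ≤ h i Λ
  hex : ∀ x : Fin d → ℝ, (∀ j, 0 < x j) → ∀ᶠ Λ in atTop, ∀ i, dot (N i) x ≤ h i Λ

theorem exists_fam {d : ℕ} (hd : 1 ≤ d) (R : Network d) (hR : IsWeaklyReversible R)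
    (k : (Fin d → ℕ) × (Fin d → ℕ) → ℝ) (hk : ∀ r ∈ R, 0 < k r)
    (c : Fin d → ℝ) (hc : ∀ i, 0 < c i) :
    ∃ (ι : Type) (_ : Finite ι), Nonempty (Fam d R k c ι) := by
  obtain ⟨m, M, hnet⟩ := network_neg R hR k hk
  obtain ⟨ι, hfin, N, h, Λ', hCD, hprop, hexh⟩ := exists_family d hd m M
  obtain ⟨Λ'', hΛ''⟩ := eventually_atTop.mp (hexh c hc)
  refine ⟨ι, hfin, ⟨⟨N, h, max Λ' Λ'', hCD, ?_, ?_, ?_, ?_, hexh⟩⟩⟩
  · intro Λ hΛ x hx
    exact (hprop Λ ((le_max_left _ _).trans hΛ) x hx).1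
  · intro Λ hΛ x hx
    exact (hprop Λ ((le_max_left _ _).trans hΛ) x hx).2.1
  · intro Λ hΛ x hx i hact
    have h1 := hprop Λ ((le_max_left _ _).trans hΛ) x hx
    exact hnet x h1.1 (N i) (fun ξ hξ hpos => h1.2.2 i hact ξ hξ hpos)
  · intro Λ hΛ i
    exact hΛ'' Λ ((le_max_right _ _).trans hΛ) i

section
variable {d : ℕ} {R : Network d} {k : (Fin d → ℕ) × (Fin d → ℕ) → ℝ} {c : Fin d → ℝ} {ι : Type}

def Fam.KS (Φ : Fam d R k c ι) (Λ : ℝ) : Set (Fin d → ℝ) :=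
  {x | (∀ i, dot (Φ.N i) x ≤ Φ.h i Λ) ∧ x - c ∈ stoichSubspace R}

def Fam.perp (Φ : Fam d R k c ι) (i : ι) : Prop :=
  ∀ r ∈ R, phi (Φ.N i) r.2 - phi (Φ.N i) r.1 = 0

lemma Fam.perp_dot (Φ : Fam d R k c ι) {i : ι} (hi : Φ.perp i) {x : Fin d → ℝ}
    (hx : x - c ∈ stoichSubspace R) : dot (Φ.N i) x = dot (Φ.N i) c := by
  have h1 : ∀ s ∈ stoichSubspace R, dot (Φ.N i) s = 0 := by
    intro s hs
    unfold stoichSubspace at hs
    induction hs using Submodule.span_induction with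
    | mem s hs =>
      obtain ⟨r, hr, rfl⟩ := hs
      have := hi r hr
      unfold phi at this
      unfold dot reactionVector
      rw [← this, ← Finset.sum_sub_distrib]
      apply Finset.sum_congr rfl
      intro j _; ring
    | zero => simp [dot]
    | add a b _ _ ha hb =>
      have : dot (Φ.N i) (a + b) = dot (Φ.N i) a + dot (Φ.N i) b := by
        simp [dot, mul_add, Finset.sum_add_distrib]
      rw [this, ha, hb, add_zero]
    | smul t a _ ha =>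
      have : dot (Φ.N i) (t • a) = t * dot (Φ.N i) a := by
        simp only [dot, Pi.smul_apply, smul_eq_mul, Finset.mul_sum]
        apply Finset.sum_congr rfl
        intro j _; ring
      rw [this, ha, mul_zero]
  have h2 := h1 _ hx
  have h3 : dot (Φ.N i) (x - c) = dot (Φ.N i) x - dot (Φ.N i) c := by
    simp [dot, mul_sub, Finset.sum_sub_distrib]
  linarith

lemma Fam.KS_closed_aux (Φ : Fam d R k c ι) :
    IsClosed {z : (Fin d → ℝ) × ℝ | z.1 ∈ Φ.KS z.2} := by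
  have h1 : {z : (Fin d → ℝ) × ℝ | z.1 ∈ Φ.KS z.2} =
      (⋂ i, {z : (Fin d → ℝ) × ℝ | dot (Φ.N i) z.1 ≤ Φ.h i z.2}) ∩
        (fun z : (Fin d → ℝ) × ℝ => z.1 - c) ⁻¹' (stoichSubspace R : Set (Fin d → ℝ)) := by
    ext z
    simp [Fam.KS]
  rw [h1]
  apply IsClosed.inter
  · apply isClosed_iInter
    intro i
    apply isClosed_le
    · exact (dot_continuous _).comp continuous_fst
    · exact (Φ.hCD i).continuous.comp continuous_snd
  · apply IsClosed.preimage (by fun_prop)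
    exact Submodule.closed_of_finiteDimensional _

lemma Fam.KS_sub (Φ : Fam d R k c ι) {Λ : ℝ} (hΛ : Φ.Λ0 ≤ Λ) :
    Φ.KS Λ ⊆ Icc (0 : Fin d → ℝ) (fun _ => d * Real.exp Λ) := by
  intro x hx
  exact ⟨fun j => (Φ.hpos Λ hΛ x hx.1 j).le, fun j => Φ.hbd Λ hΛ x hx.1 j⟩

lemma Fam.KS_compact (Φ : Fam d R k c ι) {Λ : ℝ} (hΛ : Φ.Λ0 ≤ Λ) : IsCompact (Φ.KS Λ) := by
  apply IsCompact.of_isClosed_subset isCompact_Icc _ (Φ.KS_sub hΛ)
  have : Φ.KS Λ = (fun x => (x, Λ)) ⁻¹' {z : (Fin d → ℝ) × ℝ | z.1 ∈ Φ.KS z.2} := rfl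
  rw [this]
  exact Φ.KS_closed_aux.preimage (by fun_prop)

lemma Fam.KS_convex (Φ : Fam d R k c ι) (Λ : ℝ) : Convex ℝ (Φ.KS Λ) := by
  intro x hx y hy a b ha hb hab
  have hlin : ∀ N : Fin d → ℝ, dot N (a • x + b • y) = a * dot N x + b * dot N y := by
    intro N
    simp only [dot, Pi.add_apply, Pi.smul_apply, smul_eq_mul, Finset.mul_sum,
      ← Finset.sum_add_distrib]
    apply Finset.sum_congr rfl
    intro j _; ring
  constructor
  · intro i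
    rw [hlin]
    have h1 := hx.1 i
    have h2 := hy.1 i
    have h3 : Φ.h i Λ = a * Φ.h i Λ + b * Φ.h i Λ := by rw [← add_mul, hab, one_mul]
    rw [h3]
    gcongr
  · have h1 : a • x + b • y - c = a • (x - c) + b • (y - c) := by
      have : c = (a + b) • c := by rw [hab, one_smul]
      nth_rewrite 1 [this]
      rw [smul_sub, smul_sub, add_smul]
      abel
    rw [h1]
    exact Submodule.add_mem _ (Submodule.smul_mem _ _ hx.2) (Submodule.smul_mem _ _ hy.2)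

/-- solutions stay in the affine class -/
lemma class_inv {F : (Fin d → ℝ) → (Fin d → ℝ)} (hF : ∀ x, F x ∈ stoichSubspace R)
    {a b : ℝ} {x : ℝ → Fin d → ℝ} (hxc : ContinuousOn x (Icc a b))
    (hx : ∀ t ∈ Ico a b, HasDerivWithinAt x (F (x t)) (Ici t) t) (hx0 : x a - c ∈ stoichSubspace R) :
    ∀ t ∈ Icc a b, x t - c ∈ stoichSubspace R := by
  intro t ht
  by_contra hcon
  obtain ⟨f, hf, hfS⟩ := Submodule.exists_le_ker_of_notMem hcon
  apply hf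
  set f' : (Fin d → ℝ) →L[ℝ] ℝ := LinearMap.toContinuousLinearMap f with hf'
  have hfapp : ∀ v, f' v = f v := fun v => rfl
  have hconst := constant_of_has_deriv_right_zero (f := fun t => f' (x t)) (a := a) (b := b)
    (f'.continuous.comp_continuousOn hxc) (fun s hs => by
      have h1 := f'.hasFDerivAt.comp_hasDerivWithinAt s (hx s hs)
      have h2 : f' (F (x s)) = 0 := by
        rw [hfapp]; exact hfS (hF _)
      rw [h2] at h1
      exact h1) t ht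
  have h3 : f (x a - c) = 0 := hfS hx0
  rw [map_sub] at h3 ⊢
  simp only [hfapp] at hconst
  rw [hconst]
  exact h3

theorem Fam.inv [Finite ι] (Φ : Fam d R k c ι) {F : (Fin d → ℝ) → (Fin d → ℝ)}
    (hF : ∀ x, F x ∈ stoichSubspace R)
    {a b ν Λ1 : ℝ} {x : ℝ → Fin d → ℝ} (hxc : ContinuousOn x (Icc a b))
    (hx : ∀ t ∈ Ico a b, HasDerivWithinAt x (F (x t)) (Ici t) t) (hx0 : x a ∈ Φ.KS Λ1)
    (hΛ : ∀ t ∈ Icc a b, Φ.Λ0 ≤ Λ1 - ν * (t - a))
    (hneg : ∀ t ∈ Icc a b, ∀ y ∈ Φ.KS (Λ1 - ν * (t - a)), ∀ i,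
      dot (Φ.N i) y = Φ.h i (Λ1 - ν * (t - a)) → ¬ Φ.perp i →
      dot (Φ.N i) (F y) + ν * deriv (Φ.h i) (Λ1 - ν * (t - a)) < 0) :
    ∀ t ∈ Icc a b, x t ∈ Φ.KS (Λ1 - ν * (t - a)) := by
  have hcl := class_inv hF hxc hx hx0.2
  have hb := barrier (fun i t => dot (Φ.N i) (x t) - Φ.h i (Λ1 - ν * (t - a))) (a := a) (b := b)
    (fun i => ((dot_continuous _).comp_continuousOn hxc).sub
      (((Φ.hCD i).continuous.comp (by fun_prop)).continuousOn))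
    (fun i => by
      have := hx0.1 i
      simp only [sub_self, mul_zero, sub_zero]
      linarith)
    (fun t ht hall i hact => by
      have htI : t ∈ Icc a b := ⟨ht.1, ht.2.le⟩
      have hall' : ∀ i, dot (Φ.N i) (x t) - Φ.h i (Λ1 - ν * (t - a)) ≤ 0 := hall
      have hact' : dot (Φ.N i) (x t) - Φ.h i (Λ1 - ν * (t - a)) = 0 := hact
      by_cases hp : Φ.perp i
      · right
        intro s hs
        have h1 := Φ.perp_dot hp (hcl s hs)
        have h2 := Φ.hc _ (hΛ s hs) i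
        show dot (Φ.N i) (x s) - Φ.h i (Λ1 - ν * (s - a)) ≤ 0
        rw [h1]; linarith
      · left
        refine ⟨dot (Φ.N i) (F (x t)) + ν * deriv (Φ.h i) (Λ1 - ν * (t - a)), ?_, ?_⟩
        · apply hneg t htI (x t) ⟨fun i => by linarith [hall' i], hcl t htI⟩ i (by linarith) hp
        · have h1 := dot_hasDeriv (Φ.N i) (hx t ht)
          have h2 : HasDerivAt (Φ.h i) (deriv (Φ.h i) (Λ1 - ν * (t - a))) (Λ1 - ν * (t - a)) :=
            ((Φ.hCD i).differentiable one_ne_zero _).hasDerivAt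
          have h3 : HasDerivAt (fun s : ℝ => Λ1 - ν * (s - a)) (-ν) t := by
            have h4 : HasDerivAt (fun s : ℝ => ν * (s - a)) (ν * 1) t :=
              ((hasDerivAt_id t).sub_const a).const_mul ν
            have h5 := h4.const_sub Λ1
            rw [mul_one] at h5
            exact h5
          have h6 := (h2.comp t h3).hasDerivWithinAt (s := Ici t)
          have h7 := h1.sub h6
          have h8 : dot (Φ.N i) (F (x t)) - deriv (Φ.h i) (Λ1 - ν * (t - a)) * -ν =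
              dot (Φ.N i) (F (x t)) + ν * deriv (Φ.h i) (Λ1 - ν * (t - a)) := by ring
          rw [h8] at h7
          exact h7)
  intro t ht
  refine ⟨fun i => ?_, hcl t ht⟩
  have := hb t ht i
  linarith

/-- forward invariance -/
theorem Fam.inv0 [Finite ι] (Φ : Fam d R k c ι) {F : (Fin d → ℝ) → (Fin d → ℝ)}
    (hF : ∀ x, F x ∈ stoichSubspace R) {Λ1 : ℝ} (hΛ1 : Φ.Λ0 ≤ Λ1)
    (hFeq : ∀ y ∈ Φ.KS Λ1, F y = field R k y)
    {a b : ℝ} {x : ℝ → Fin d → ℝ} (hxc : ContinuousOn x (Icc a b))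
    (hx : ∀ t ∈ Ico a b, HasDerivWithinAt x (F (x t)) (Ici t) t) (hx0 : x a ∈ Φ.KS Λ1) :
    ∀ t ∈ Icc a b, x t ∈ Φ.KS Λ1 := by
  have := Φ.inv hF (ν := 0) hxc hx hx0 (by intro t _; simpa using hΛ1) (by
    intro t _ y hy i hact hp
    simp only [zero_mul, sub_zero, add_zero] at *
    rw [hFeq y hy]
    rcases Φ.hneg Λ1 hΛ1 y hy.1 i hact with h | h
    · exact absurd h hp
    · exact h)
  simpa using this

/-- uniform decrease -/
theorem Fam.exists_nu [Finite ι] (Φ : Fam d R k c ι) (Λ1 : ℝ) :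
    ∃ ν : ℝ, 0 < ν ∧ ∀ Λ ∈ Icc Φ.Λ0 Λ1, ∀ y ∈ Φ.KS Λ, ∀ i, dot (Φ.N i) y = Φ.h i Λ → ¬ Φ.perp i →
      dot (Φ.N i) (field R k y) + ν * deriv (Φ.h i) Λ < 0 := by
  have hev : ∀ᶠ ν in 𝓝[>] (0:ℝ), ∀ i, ∀ Λ ∈ Icc Φ.Λ0 Λ1, ∀ y ∈ Φ.KS Λ,
      dot (Φ.N i) y = Φ.h i Λ → ¬ Φ.perp i →
      dot (Φ.N i) (field R k y) + ν * deriv (Φ.h i) Λ < 0 := by
    rw [eventually_all]
    intro i
    by_cases hp : Φ.perp i
    · exact Eventually.of_forall (fun ν Λ _ y _ _ hp' => absurd hp hp')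
    set Z : Set ((Fin d → ℝ) × ℝ) := {z | z.2 ∈ Icc Φ.Λ0 Λ1 ∧ z.1 ∈ Φ.KS z.2 ∧
      dot (Φ.N i) z.1 = Φ.h i z.2} with hZ
    have hZc : IsCompact Z := by
      apply IsCompact.of_isClosed_subset
        (isCompact_Icc (a := (0 : Fin d → ℝ)) (b := fun _ => d * Real.exp Λ1) |>.prod
          (isCompact_Icc (a := Φ.Λ0) (b := Λ1)))
      · have h1 : Z = ((fun z : (Fin d → ℝ) × ℝ => z.2) ⁻¹' Icc Φ.Λ0 Λ1) ∩
            ({z : (Fin d → ℝ) × ℝ | z.1 ∈ Φ.KS z.2} ∩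
              {z : (Fin d → ℝ) × ℝ | dot (Φ.N i) z.1 = Φ.h i z.2}) := by
          ext z; simp [hZ]
        rw [h1]
        apply (isClosed_Icc.preimage continuous_snd).inter
        apply Φ.KS_closed_aux.inter
        exact isClosed_eq ((dot_continuous _).comp continuous_fst)
          ((Φ.hCD i).continuous.comp continuous_snd)
      · rintro ⟨y, Λ⟩ ⟨h1, h2, -⟩
        refine ⟨?_, h1⟩
        have h3 := Φ.KS_sub h1.1 h2
        refine ⟨h3.1, fun j => (h3.2 j).trans ?_⟩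
        have : Real.exp Λ ≤ Real.exp Λ1 := Real.exp_le_exp.mpr h1.2
        simp only
        gcongr
    have hGc : Continuous (fun z : (Fin d → ℝ) × ℝ => dot (Φ.N i) (field R k z.1)) :=
      (dot_continuous _).comp ((contDiff_field R k).continuous.comp continuous_fst)
    obtain ⟨κ, hκ0, hκ⟩ : ∃ κ : ℝ, 0 < κ ∧ ∀ z ∈ Z, dot (Φ.N i) (field R k z.1) ≤ -κ := by
      rcases Z.eq_empty_or_nonempty with he | hne
      · exact ⟨1, one_pos, by rw [he]; simp⟩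
      · obtain ⟨z0, hz0, hmax⟩ := hZc.exists_isMaxOn hne hGc.continuousOn
        have hneg0 : dot (Φ.N i) (field R k z0.1) < 0 := by
          rcases Φ.hneg z0.2 hz0.1.1 z0.1 hz0.2.1.1 i hz0.2.2 with h | h
          · exact absurd h hp
          · exact h
        refine ⟨-(dot (Φ.N i) (field R k z0.1)), by linarith, ?_⟩
        intro z hz
        have := hmax hz
        simp only [mem_ofPred_eq] at this
        linarith
    obtain ⟨H, hH⟩ : ∃ H : ℝ, ∀ Λ ∈ Icc Φ.Λ0 Λ1, ‖deriv (Φ.h i) Λ‖ ≤ H := by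
      have hd : Continuous (deriv (Φ.h i)) := (Φ.hCD i).continuous_deriv le_rfl
      exact isCompact_Icc.exists_bound_of_continuousOn hd.continuousOn
    have hpos : 0 < κ / (|H| + 1) := by positivity
    filter_upwards [Ioo_mem_nhdsGT hpos] with ν hν Λ hΛ y hy hact _
    have h1 := hκ (y, Λ) ⟨hΛ, hy, hact⟩
    have h2 := hH Λ hΛ
    have h3 : ν * (|H| + 1) < κ := by
      have := hν.2
      rwa [lt_div_iff₀ (by positivity)] at this
    have h4 : deriv (Φ.h i) Λ ≤ |H| := (le_abs_self _).trans (h2.trans (le_abs_self _))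
    have h5 : ν * deriv (Φ.h i) Λ ≤ ν * |H| := by
      apply mul_le_mul_of_nonneg_left h4 hν.1.le
    simp only at h1
    have := hν.1
    linarith
  obtain ⟨ν, hν1, hν2⟩ := (hev.and self_mem_nhdsWithin).exists
  exact ⟨ν, hν2, fun Λ hΛ y hy i => hν1 i Λ hΛ y hy⟩

lemma forward_cont {v : (Fin d → ℝ) → (Fin d → ℝ)} {x : ℝ → Fin d → ℝ} (hx : IsForwardSolution v x)
    {a b : ℝ} (ha : 0 ≤ a) : ContinuousOn x (Icc a b) := by
  intro t ht
  exact (hx t (ha.trans ht.1)).continuousWithinAt.mono (fun s hs => ha.trans hs.1)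

lemma forward_deriv {v : (Fin d → ℝ) → (Fin d → ℝ)} {x : ℝ → Fin d → ℝ} (hx : IsForwardSolution v x)
    {t : ℝ} (ht : 0 ≤ t) : HasDerivWithinAt x (v (x t)) (Ici t) t :=
  (hx t ht).mono (Ici_subset_Ici.mpr ht)

theorem Fam.stay [Finite ι] (Φ : Fam d R k c ι) {Λ1 : ℝ} (hΛ1 : Φ.Λ0 ≤ Λ1) {x : ℝ → Fin d → ℝ}
    (hx : IsForwardSolution (field R k) x) {a : ℝ} (ha : 0 ≤ a) (hxa : x a ∈ Φ.KS Λ1) :
    ∀ t, a ≤ t → x t ∈ Φ.KS Λ1 := by
  intro t ht
  exact Φ.inv0 (field_mem R k) hΛ1 (fun _ _ => rfl) (forward_cont hx ha)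
    (fun s hs => forward_deriv hx (ha.trans hs.1)) hxa t ⟨ht, le_rfl⟩

theorem Fam.absorb [Finite ι] (Φ : Fam d R k c ι) {Λ1 : ℝ} (hΛ1 : Φ.Λ0 ≤ Λ1) {x : ℝ → Fin d → ℝ}
    (hx : IsForwardSolution (field R k) x) (hx0 : x 0 ∈ Φ.KS Λ1) :
    ∃ T : ℝ, 0 ≤ T ∧ ∀ t, T ≤ t → x t ∈ Φ.KS Φ.Λ0 := by
  obtain ⟨ν, hν, hνp⟩ := Φ.exists_nu Λ1
  set T := (Λ1 - Φ.Λ0) / ν with hT
  have hT0 : 0 ≤ T := div_nonneg (by linarith) hν.le
  have hνT : ν * T = Λ1 - Φ.Λ0 := by rw [hT, mul_div_cancel₀ _ hν.ne']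
  have hrange : ∀ t ∈ Icc 0 T, Λ1 - ν * (t - 0) ∈ Icc Φ.Λ0 Λ1 := by
    intro t ht
    rw [sub_zero]
    constructor
    · have : ν * t ≤ ν * T := mul_le_mul_of_nonneg_left ht.2 hν.le
      linarith
    · have : 0 ≤ ν * t := mul_nonneg hν.le ht.1
      linarith
  have h1 := Φ.inv (field_mem R k) (ν := ν) (a := 0) (b := T) (forward_cont hx le_rfl)
    (fun s hs => forward_deriv hx hs.1) hx0 (fun t ht => (hrange t ht).1)
    (fun t ht y hy i hact hp => hνp _ (hrange t ht) y hy i hact hp) T ⟨hT0, le_rfl⟩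
  have h2 : Λ1 - ν * (T - 0) = Φ.Λ0 := by rw [sub_zero, hνT]; ring
  rw [h2] at h1
  exact ⟨T, hT0, Φ.stay le_rfl hx hT0 h1⟩

theorem Fam.exist [Finite ι] (Φ : Fam d R k c ι) {Λ1 : ℝ} (hΛ1 : Φ.Λ0 ≤ Λ1) {x0 : Fin d → ℝ}
    (hx0 : x0 ∈ Φ.KS Λ1) : ∃ x : ℝ → Fin d → ℝ, IsForwardSolution (field R k) x ∧ x 0 = x0 := by
  set b : ℝ := d * Real.exp Λ1 with hb
  have hb0 : 0 ≤ b := by positivity
  obtain ⟨K, L, hK, hL⟩ := field_clamp R k hb0
  obtain ⟨x, hx0', hx⟩ := global_exists _ hK hL x0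
  have hFeq : ∀ y ∈ Φ.KS Λ1, field R k (clampF b y) = field R k y := by
    intro y hy
    rw [clampF_eq]
    intro i
    have := Φ.KS_sub hΛ1 hy
    exact ⟨this.1 i, this.2 i⟩
  have hstay : ∀ t, 0 ≤ t → x t ∈ Φ.KS Λ1 := by
    intro t ht
    apply Φ.inv0 (F := fun y => field R k (clampF b y)) (fun y => field_mem R k _) hΛ1 hFeq
      (a := 0) (b := t) _ _ (by rw [hx0']; exact hx0) t ⟨ht, le_rfl⟩
    · intro s hs
      exact (hx s hs.1).continuousWithinAt.mono (fun r hr => hr.1)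
    · intro s hs
      exact (hx s hs.1).mono (Ici_subset_Ici.mpr hs.1)
  refine ⟨x, ?_, hx0'⟩
  intro t ht
  have := hx t ht
  rw [hFeq _ (hstay t ht)] at this
  exact this

theorem Fam.uniq [Finite ι] (Φ : Fam d R k c ι) {Λ1 : ℝ} (hΛ1 : Φ.Λ0 ≤ Λ1) {x x' : ℝ → Fin d → ℝ}
    (hx : IsForwardSolution (field R k) x) (hx' : IsForwardSolution (field R k) x')
    (hx0 : x 0 ∈ Φ.KS Λ1) (he : x 0 = x' 0) : ∀ t, 0 ≤ t → x t = x' t := by
  intro t ht
  obtain ⟨K, hK⟩ := field_lip R k (d * Real.exp Λ1)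
  have h1 := Φ.stay hΛ1 hx le_rfl hx0
  have h2 := Φ.stay hΛ1 hx' le_rfl (by rw [← he]; exact hx0)
  exact ODE_solution_unique_of_mem_Icc_right (v := fun _ => field R k)
    (s := fun _ => Icc (0 : Fin d → ℝ) (fun _ => d * Real.exp Λ1)) (a := 0) (b := t)
    (fun _ _ => hK) (forward_cont hx le_rfl) (fun s hs => forward_deriv hx hs.1)
    (fun s hs => Φ.KS_sub hΛ1 (h1 s hs.1)) (forward_cont hx' le_rfl)
    (fun s hs => forward_deriv hx' hs.1) (fun s hs => Φ.KS_sub hΛ1 (h2 s hs.1)) he ⟨ht, le_rfl⟩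

end

end Crest.Agent.S0122H
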