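import Mathlib

set_option autoImplicit false

namespace Crest.Agent.S0122H

open Finset

lemma exists_sort_of_monovary {k : ℕ} (f g : Fin k → ℝ) (hf : Antitone f) (hfg : Monovary f g) :
    ∃ r : Equiv.Perm (Fin k), Antitone (g ∘ r) ∧ f ∘ r = f := by
  set F : Fin k → (ℝ ×ₗ ℝ)ᵒᵈ := fun j => OrderDual.toDual (toLex (f j, g j)) with hF
  have hs := Tuple.monotone_sort F
  set r := Tuple.sort F with hr
  have key : ∀ i j, i ≤ j → f (r j) < f (r i) ∨ f (r j) = f (r i) ∧ g (r j) ≤ g (r i) := by
    intro i j hij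
    have h1 := hs hij
    simp only [Function.comp, hF, OrderDual.toDual_le_toDual] at h1
    rw [Prod.Lex.le_iff] at h1
    simpa using h1
  refine ⟨r, ?_, ?_⟩
  · intro i j hij
    rcases key i j hij with h | h
    · by_contra hcon
      push Not at hcon
      simp only [Function.comp] at hcon
      have := hfg hcon
      linarith
    · exact h.2
  · have h1 : Antitone (f ∘ r) := by
      intro i j hij
      rcases key i j hij with h | h
      · exact h.le
      · exact h.1.le
    have := Tuple.unique_antitone (f := f) (σ := r) (τ := Equiv.refl _) h1 (by simpa using hf)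
    simpa using this

lemma exists_sort_of_active {k : ℕ} (f g : Fin k → ℝ) (hf : Antitone f) {H : ℝ}
    (hle : ∀ r : Equiv.Perm (Fin k), ∑ j, f j * g (r j) ≤ H) (heq : ∑ j, f j * g j = H) :
    ∃ r : Equiv.Perm (Fin k), Antitone (g ∘ r) ∧ f ∘ r = f := by
  apply exists_sort_of_monovary f g hf
  obtain ⟨s, hs⟩ : ∃ s : Equiv.Perm (Fin k), Antitone (g ∘ s) := by
    refine ⟨Tuple.sort (fun j => OrderDual.toDual (g j)), ?_⟩
    intro i j hij
    exact Tuple.monotone_sort (fun j => OrderDual.toDual (g j)) hij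
  have hmv : Monovary f (g ∘ s) := hf.monovary hs
  have h1 : ∑ j, f j * (g ∘ s) (s⁻¹ j) = ∑ j, f j * (g ∘ s) j := by
    apply le_antisymm
    · exact hmv.sum_mul_comp_perm_le_sum_mul
    · have h2 : ∑ j, f j * (g ∘ s) (s⁻¹ j) = H := by
        rw [← heq]
        apply sum_congr rfl
        intro j _
        simp
      rw [h2]
      exact hle s
  have h2 := hmv.sum_mul_comp_perm_eq_sum_mul_iff.mp h1
  have h3 : (g ∘ s) ∘ (s⁻¹ : Equiv.Perm (Fin k)) = g := by
    funext j; simp
  rw [h3] at h2
  exact h2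

end Crest.Agent.S0122H
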