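import Crest.Agent.S0122H.Fin
import Crest.Agent.S0122H.Sort

set_option autoImplicit false

namespace Crest.Agent.S0122H

open Finset

noncomputable def scl (Q : ℝ) (n k : ℕ) : ℝ := Q^(n-k)

lemma scl_ge_one {Q : ℝ} (hQ : 1 ≤ Q) (n k : ℕ) : 1 ≤ scl Q n k := one_le_pow₀ hQ

lemma scl_self (Q : ℝ) (n : ℕ) : scl Q n n = 1 := by simp [scl]

lemma scl_succ {Q : ℝ} {n k : ℕ} (h : k < n) : scl Q n k = Q * scl Q n (k+1) := by
  unfold scl
  have : n - k = (n - (k+1)) + 1 := by omega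
  rw [this, pow_succ]; ring

lemma scl_le_one_idx {Q : ℝ} (hQ : 1 ≤ Q) {n k : ℕ} : scl Q n k ≤ Q ^ n := by
  unfold scl
  exact pow_le_pow_right₀ hQ (Nat.sub_le n k)

lemma scl_anti {Q : ℝ} (hQ : 1 ≤ Q) {n k l : ℕ} (h : k ≤ l) : scl Q n l ≤ scl Q n k := by
  unfold scl
  exact pow_le_pow_right₀ hQ (by omega)

noncomputable def hfun (P : Par) (Q : ℝ) (x : Idx P.n) (Λ : ℝ) : ℝ :=
  x.2.1 * Real.exp (x.2.1 * (Λ * scl Q P.n x.1.1)) +
    cost P (Λ * scl Q P.n x.1.1) x.2.2.1 x.2.2.2.1 x.2.2.2.2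

noncomputable def LHS {n : ℕ} (x : Idx n) (y : Fin n → ℝ) : ℝ :=
  ∑ j : Fin x.1.1, x.2.2.2.1 j * y (x.1.2 j)

def InK (P : Par) (Q t0 : ℝ) (Λ : ℝ) (y : Fin P.n → ℝ) : Prop :=
  ∀ x, Adm P t0 x → LHS x y ≤ hfun P Q x Λ

lemma cost_nonneg (P : Par) (Λ : ℝ) (p : ℕ) (w : ℕ → ℝ) (τ : ℕ → Bool) : 0 ≤ cost P Λ p w τ :=
  sum_nonneg (fun _ _ => (Real.exp_pos _).le)

lemma cost_one (P : Par) (Λ : ℝ) (w : ℕ → ℝ) (τ : ℕ → Bool) : cost P Λ 1 w τ = 0 := by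
  simp [cost]

section
variable {P : Par} {Q t0 Λ : ℝ} {y : Fin P.n → ℝ}

lemma inK_lower (hn : 1 ≤ P.n) (h : InK P Q t0 Λ y) (i : Fin P.n) :
    Real.exp (-(Λ * scl Q P.n 1)) ≤ y i := by
  have h1 := h (⟨1, fun _ => i⟩, -1, 1, (fun j => if j = 0 then -1 else t0), fun _ => false)
    ⟨le_rfl, hn, fun a b _ => Subsingleton.elim a b, Or.inl rfl, le_rfl, valid_one P (-1) t0⟩
  simp only [LHS, hfun, cost_one] at h1
  simp at h1
  exact h1

/-- generic "first coordinate only" constraint -/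
lemma inK_first (h : InK P Q t0 Λ y) {k : ℕ} (hk1 : 1 ≤ k) (hkn : k ≤ P.n)
    {σ : Fin k → Fin P.n} (hσ : Function.Injective σ) :
    ∑ j : Fin k, (if (j : ℕ) = 0 then (-1:ℝ) else t0) * y (σ j) ≤ - Real.exp (-(Λ * scl Q P.n k)) := by
  have h1 := h (⟨k, σ⟩, -1, 1, (fun j => if j = 0 then -1 else t0), fun _ => false)
    ⟨hk1, hkn, hσ, Or.inl rfl, hk1, valid_one P (-1) t0⟩
  simp only [LHS, hfun, cost_one] at h1
  simpa using h1

lemma valid_ones (hn : 1 ≤ P.n) (ht : t0 < 1) :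
    ∃ w τ, Valid P 1 t0 P.n w τ ∧ ∀ j, j < P.n → w j = 1 := by
  rcases Nat.eq_or_lt_of_le hn with h | h
  · refine ⟨_, _, by rw [← h]; exact valid_one P 1 t0, ?_⟩
    intro j hj
    have : j = 0 := by omega
    simp [this]
  · have hOk : Ok P t0 (fun j => if j = 0 then 1 else t0) (fun _ => false) 1 1 true := by
      refine ⟨ht, by simp, fun _ => ⟨tie 1, P.htie 1 le_rfl h, tie_level 1, ?_⟩, fun hb => by simp at hb⟩
      rw [lam_tie le_rfl]; simp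
    refine ⟨_, _, valid_raise (k := P.n) (valid_one P 1 t0) le_rfl le_rfl h le_rfl hOk, ?_⟩
    intro j hj
    rcases Nat.eq_zero_or_pos j with h1 | h1
    · subst h1; simp
    · simp [show ¬ j < 1 by omega, hj]

lemma inK_upper (hn : 1 ≤ P.n) (ht : t0 < 1) (hΛ : 0 ≤ Λ) (h : InK P Q t0 Λ y)
    (hy : ∀ i, 0 ≤ y i) (i : Fin P.n) : y i ≤ P.n * Real.exp Λ := by
  obtain ⟨w, τ, hv, hw⟩ := valid_ones (P := P) (t0 := t0) hn ht
  have h1 := h (⟨P.n, id⟩, 1, P.n, w, τ)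
    ⟨hn, le_rfl, Function.injective_id, Or.inr ⟨rfl, rfl⟩, le_rfl, hv⟩
  simp only [LHS, hfun, scl_self, mul_one, one_mul, id] at h1
  have h2 : ∑ j : Fin P.n, w j * y j = ∑ j : Fin P.n, y j := by
    apply sum_congr rfl
    intro j _
    rw [hw j j.2, one_mul]
  rw [h2] at h1
  have h3 : y i ≤ ∑ j : Fin P.n, y j := single_le_sum (fun j _ => hy j) (mem_univ i)
  have h4 : cost P Λ P.n w τ ≤ ((P.n - 1 : ℕ) : ℝ) * Real.exp Λ := by
    unfold cost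
    calc ∑ j ∈ Ico 1 P.n, Real.exp (Λ * (w j - mu P.n P.ρ τ j))
        ≤ ∑ j ∈ Ico 1 P.n, Real.exp Λ := by
          apply sum_le_sum
          intro j hj
          have hj' := mem_Ico.mp hj
          rw [hw j hj'.2]
          apply Real.exp_le_exp.mpr
          have := mu_pos (n := P.n) (τ := τ) P.hρ0 j
          nlinarith
      _ = _ := by rw [sum_const, Nat.card_Ico, nsmul_eq_mul]
  have h5 : ((P.n - 1 : ℕ) : ℝ) = P.n - 1 := by
    rw [Nat.cast_sub hn]; simp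
  rw [h5] at h4
  linarith

lemma sum_conv {k : ℕ} {F : ℕ → ℝ} {G : Fin k → ℝ} (h : ∀ j : Fin k, F j = G j) :
    ∑ j ∈ range k, F j = ∑ j, G j := by
  rw [Finset.sum_range]
  exact sum_congr rfl (fun j _ => h j)

end

end Crest.Agent.S0122H
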