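import Mathlib

set_option autoImplicit false

namespace Crest.Agent.S0122H

/-- `v` has leading index `j`: the entry there is `1` and all later entries vanish. -/
def HasLevel (v : ℕ → ℝ) (j : ℕ) : Prop := v j = 1 ∧ ∀ i, j < i → v i = 0

lemma HasLevel.unique {v : ℕ → ℝ} {j j' : ℕ} (h : HasLevel v j) (h' : HasLevel v j') : j = j' := by
  rcases lt_trichotomy j j' with h1 | h1 | h1
  · have := h.2 j' h1
    have := h'.1
    linarith
  · exact h1
  · have := h'.2 j h1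
    have := h.1
    linarith

/-- last index `≤ n` with nonzero entry -/
noncomputable def lastIdx (n : ℕ) (d : ℕ → ℝ) : ℕ := by
  classical exact Nat.findGreatest (fun i => d i ≠ 0) n

noncomputable def normV (n : ℕ) (d : ℕ → ℝ) : ℕ → ℝ := fun i => d i / d (lastIdx n d)

lemma normV_spec {n j : ℕ} {v v' : ℕ → ℝ} (hj : j < n) (hv : HasLevel v j) (hv' : HasLevel v' j)
    (hne : v ≠ v') :
    lastIdx n (v - v') < j ∧ (v - v') (lastIdx n (v - v')) ≠ 0 ∧
      HasLevel (normV n (v - v')) (lastIdx n (v - v')) ∧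
      ∀ i, v i - v' i = (v - v') (lastIdx n (v - v')) * normV n (v - v') i := by
  classical
  set d := v - v' with hd
  have hdz : ∀ i, j ≤ i → d i = 0 := by
    intro i hi
    rcases Nat.lt_or_ge j i with h | h
    · simp [hd, hv.2 i h, hv'.2 i h]
    · have : i = j := le_antisymm h hi
      subst this
      simp [hd, hv.1, hv'.1]
  obtain ⟨i0, hi0⟩ : ∃ i, d i ≠ 0 := by
    by_contra hcon
    push Not at hcon
    apply hne
    funext i
    have := hcon i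
    simp [hd] at this
    linarith
  have hi0j : i0 < j := by
    by_contra h
    exact hi0 (hdz i0 (not_lt.mp h))
  have hl : d (lastIdx n d) ≠ 0 := by
    unfold lastIdx
    exact Nat.findGreatest_spec (P := fun i => d i ≠ 0) (m := i0) (n := n) (by omega) hi0
  have hlj : lastIdx n d < j := by
    by_contra h
    exact hl (hdz _ (not_lt.mp h))
  have hgt : ∀ i, lastIdx n d < i → d i = 0 := by
    intro i hi
    rcases Nat.lt_or_ge n i with h | h
    · exact hdz i (by omega)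
    · by_contra hne0
      have := Nat.le_findGreatest (P := fun i => d i ≠ 0) h hne0
      unfold lastIdx at hi
      omega
  refine ⟨hlj, hl, ⟨?_, ?_⟩, ?_⟩
  · simp [normV, hl]
  · intro i hi
    simp [normV, hgt i hi]
  · intro i
    simp only [normV]
    rw [mul_div_cancel₀ _ hl]
    simp [hd]

/-- Closure under elimination, finitely many steps. -/
lemma closure_aux (n : ℕ) (Ξ : Set (ℕ → ℝ)) (hfin : Ξ.Finite)
    (hΞ : ∀ v ∈ Ξ, ∃ j < n, HasLevel v j) (s : ℕ) :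
    ∃ V : Set (ℕ → ℝ), V.Finite ∧ Ξ ⊆ V ∧ (∀ v ∈ V, ∃ j < n, HasLevel v j) ∧
      ∀ v ∈ V, ∀ v' ∈ V, ∀ j, n ≤ j + s → HasLevel v j → HasLevel v' j → v ≠ v' →
        normV n (v - v') ∈ V := by
  induction s with
  | zero =>
    refine ⟨Ξ, hfin, subset_rfl, hΞ, ?_⟩
    intro v hv v' hv' j hj h h' hne
    obtain ⟨j', hj', hl⟩ := hΞ v hv
    have := hl.unique h
    omega
  | succ s ih =>
    obtain ⟨V, hVfin, hΞV, hVl, hVc⟩ := ih
    set P : Set ((ℕ → ℝ) × (ℕ → ℝ)) := {p | p.1 ∈ V ∧ p.2 ∈ V ∧ p.1 ≠ p.2 ∧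
      ∃ j, n = j + s + 1 ∧ HasLevel p.1 j ∧ HasLevel p.2 j} with hP
    have hPfin : P.Finite := by
      apply (hVfin.prod hVfin).subset
      rintro ⟨a, b⟩ ⟨h1, h2, -⟩
      exact ⟨h1, h2⟩
    refine ⟨V ∪ (fun p : (ℕ → ℝ) × (ℕ → ℝ) => normV n (p.1 - p.2)) '' P,
      hVfin.union (hPfin.image _), hΞV.trans Set.subset_union_left, ?_, ?_⟩
    · rintro v (hv | ⟨⟨a, b⟩, ⟨ha, hb, hne, j, hj, hla, hlb⟩, rfl⟩)
      · exact hVl v hv
      · have := normV_spec (n := n) (j := j) (by omega) hla hlb hne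
        exact ⟨_, by have := this.1; omega, this.2.2.1⟩
    · intro v hv v' hv' j hj h h' hne
      have key : ∀ x ∈ V ∪ (fun p : (ℕ → ℝ) × (ℕ → ℝ) => normV n (p.1 - p.2)) '' P,
          HasLevel x j → x ∈ V := by
        rintro x (hx | ⟨⟨a, b⟩, ⟨ha, hb, hne, j', hj', hla, hlb⟩, rfl⟩) hxl
        · exact hx
        · have h3 := normV_spec (n := n) (j := j') (by omega) hla hlb hne
          have h4 := h3.2.2.1.unique hxl
          have := h3.1
          omega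
      have hv2 := key v hv h
      have hv2' := key v' hv' h'
      rcases Nat.lt_or_ge (j + s) n with h5 | h5
      · right
        refine ⟨(v, v'), ⟨hv2, hv2', hne, j, by omega, h, h'⟩, rfl⟩
      · left
        exact hVc v hv2 v' hv2' j h5 h h' hne

lemma exists_lower_bound {α : Type*} {S : Set α} (hS : S.Finite) (f : α → ℝ)
    (hf : ∀ x ∈ S, 0 < f x) : ∃ θ : ℝ, 0 < θ ∧ θ ≤ 1 ∧ ∀ x ∈ S, θ ≤ f x := by
  classical
  induction S, hS using Set.Finite.induction_on with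
  | empty => exact ⟨1, one_pos, le_rfl, by simp⟩
  | @insert a S _ _ ih =>
    obtain ⟨θ, h1, h2, h3⟩ := ih (fun x hx => hf x (Set.mem_insert_of_mem _ hx))
    refine ⟨min θ (f a), lt_min h1 (hf a (Set.mem_insert _ _)), (min_le_left _ _).trans h2, ?_⟩
    rintro x (rfl | hx)
    · exact min_le_right _ _
    · exact (min_le_left _ _).trans (h3 x hx)

theorem exists_closure (n : ℕ) (Ξ : Set (ℕ → ℝ)) (hfin : Ξ.Finite)
    (hΞ : ∀ v ∈ Ξ, ∃ j < n, HasLevel v j) :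
    ∃ (V : Set (ℕ → ℝ)) (θ : ℝ), V.Finite ∧ 0 < θ ∧ θ ≤ 1 ∧ Ξ ⊆ V ∧
      (∀ v ∈ V, ∃ j < n, HasLevel v j) ∧
      ∀ v ∈ V, ∀ v' ∈ V, ∀ j, HasLevel v j → HasLevel v' j → v ≠ v' →
        ∃ a : ℝ, θ ≤ |a| ∧ ∃ v'' ∈ V, ∃ l < j, HasLevel v'' l ∧ ∀ i, v i - v' i = a * v'' i := by
  obtain ⟨V, hVfin, hΞV, hVl, hVc⟩ := closure_aux n Ξ hfin hΞ n
  set P : Set ((ℕ → ℝ) × (ℕ → ℝ)) := {p | p.1 ∈ V ∧ p.2 ∈ V ∧ p.1 ≠ p.2 ∧
      ∃ j, HasLevel p.1 j ∧ HasLevel p.2 j} with hP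
  have hPfin : P.Finite := by
    apply (hVfin.prod hVfin).subset
    rintro ⟨a, b⟩ ⟨h1, h2, -⟩
    exact ⟨h1, h2⟩
  obtain ⟨θ, hθ0, hθ1, hθ⟩ := exists_lower_bound hPfin
    (fun p => |(p.1 - p.2) (lastIdx n (p.1 - p.2))|) (by
      rintro ⟨a, b⟩ ⟨ha, hb, hne, j, hla, hlb⟩
      obtain ⟨j', hj', hl'⟩ := hVl a ha
      have : j = j' := hla.unique hl'
      subst this
      exact abs_pos.mpr (normV_spec hj' hla hlb hne).2.1)
  refine ⟨V, θ, hVfin, hθ0, hθ1, hΞV, hVl, ?_⟩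
  intro v hv v' hv' j h h' hne
  obtain ⟨j', hj', hl'⟩ := hVl v hv
  have : j = j' := h.unique hl'
  subst this
  have h3 := normV_spec hj' h h' hne
  refine ⟨(v - v') (lastIdx n (v - v')), hθ (v, v') ⟨hv, hv', hne, j, h, h'⟩,
    normV n (v - v'), hVc v hv v' hv' j (by omega) h h' hne, _, h3.1, h3.2.2.1, h3.2.2.2⟩

end Crest.Agent.S0122H
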