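import Crest.Agent.S0122H.Scale

set_option autoImplicit false

namespace Crest.Agent.S0122H

open Finset

/-- the covector `e_j - e_{j-1}` -/
noncomputable def tie (j : ℕ) : ℕ → ℝ := fun i => if i = j then 1 else if i + 1 = j then -1 else 0

structure Par where
  n : ℕ
  V : Set (ℕ → ℝ)
  θ : ℝ
  ρ : ℝ
  B : ℝ
  hVfin : V.Finite
  hVl : ∀ v ∈ V, ∃ j < n, HasLevel v j
  hθ0 : 0 < θ
  hθ1 : θ ≤ 1
  hρ0 : 0 < ρ
  hB : 1 ≤ B
  hρ1 : 16 * B * ρ ≤ θ ^ n
  hclosed : ∀ v ∈ V, ∀ v' ∈ V, ∀ j, HasLevel v j → HasLevel v' j → v ≠ v' →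
        ∃ a : ℝ, θ ≤ |a| ∧ ∃ v'' ∈ V, ∃ l < j, HasLevel v'' l ∧ ∀ i, v i - v' i = a * v'' i
  htie : ∀ j, 1 ≤ j → j < n → tie j ∈ V

lemma Par.rho_le (P : Par) : P.ρ ≤ 1/16 := by
  have h1 : P.θ ^ P.n ≤ 1 := pow_le_one₀ P.hθ0.le P.hθ1
  have h2 := P.hρ1
  have h3 := P.hB
  have h4 := P.hρ0
  nlinarith

lemma Par.rho_le_one (P : Par) : P.ρ ≤ 1 := by
  have := P.rho_le
  linarith

noncomputable def lam (v : ℕ → ℝ) (w : ℕ → ℝ) (j : ℕ) : ℝ := - ∑ i ∈ range j, v i * w i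

noncomputable def ev (n : ℕ) (v : ℕ → ℝ) (w : ℕ → ℝ) : ℝ := ∑ i ∈ range n, v i * w i

lemma ev_eq {n j : ℕ} {v w : ℕ → ℝ} (hj : j < n) (hv : HasLevel v j) :
    ev n v w = w j - lam v w j := by
  unfold ev lam
  have h1 : ∑ i ∈ range n, v i * w i = ∑ i ∈ range (j+1), v i * w i := by
    symm
    apply Finset.sum_subset
    · intro i hi
      simp only [mem_range] at *
      omega
    · intro i _ hi
      simp only [mem_range, not_lt] at hi
      rw [hv.2 i (by omega), zero_mul]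
  rw [h1, sum_range_succ, hv.1]
  ring

lemma lam_congr {v w w' : ℕ → ℝ} {j : ℕ} (h : ∀ i, i < j → w i = w' i) : lam v w j = lam v w' j := by
  unfold lam
  congr 1
  apply sum_congr rfl
  intro i hi
  rw [h i (mem_range.mp hi)]

lemma tie_level (j : ℕ) : HasLevel (tie j) j := by
  constructor
  · simp [tie]
  · intro i hi
    simp [tie, show i ≠ j by omega, show i + 1 ≠ j by omega]

lemma lam_tie {w : ℕ → ℝ} {j : ℕ} (hj : 1 ≤ j) : lam (tie j) w j = w (j-1) := by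
  obtain ⟨i, rfl⟩ : ∃ i, j = i + 1 := ⟨j-1, by omega⟩
  unfold lam
  rw [sum_range_succ]
  have h1 : ∑ x ∈ range i, tie (i+1) x * w x = 0 := by
    apply sum_eq_zero
    intro x hx
    have := mem_range.mp hx
    simp [tie, show x ≠ i + 1 by omega, show x ≠ i by omega]
  rw [h1]
  simp [tie]

/-- value `t` with flag `b` is allowed at position `j` after the prefix `w, τ`. -/
def Ok (P : Par) (t0 : ℝ) (w : ℕ → ℝ) (τ : ℕ → Bool) (j : ℕ) (t : ℝ) (b : Bool) : Prop :=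
  t0 < t ∧ t ≤ w (j-1) ∧
  (b = true → ∃ v ∈ P.V, HasLevel v j ∧ t = lam v w j) ∧
  (b = false → (∃ z : ℤ, t = dl P.n P.ρ * z) ∧
    ∀ v ∈ P.V, HasLevel v j → mm P.n P.ρ τ j ≤ |t - lam v w j|)

lemma Ok.congr {P : Par} {t0 : ℝ} {w w' : ℕ → ℝ} {τ τ' : ℕ → Bool} {j : ℕ} {t : ℝ} {b : Bool}
    (hj : 1 ≤ j) (hw : ∀ i, i < j → w i = w' i) (hτ : ∀ i, i < j → τ i = τ' i)
    (h : Ok P t0 w τ j t b) : Ok P t0 w' τ' j t b := by
  obtain ⟨h1, h2, h3, h4⟩ := h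
  refine ⟨h1, ?_, ?_, ?_⟩
  · rw [← hw (j-1) (by omega)]; exact h2
  · intro hb
    obtain ⟨v, hv, hl, he⟩ := h3 hb
    exact ⟨v, hv, hl, by rw [he, lam_congr hw]⟩
  · intro hb
    obtain ⟨hz, hv⟩ := h4 hb
    refine ⟨hz, fun v hv' hl => ?_⟩
    have h5 := hv v hv' hl
    rw [lam_congr hw] at h5
    unfold mm at *
    rw [← ee_congr P.n hτ]
    exact h5

def Valid (P : Par) (c t0 : ℝ) (p : ℕ) (w : ℕ → ℝ) (τ : ℕ → Bool) : Prop :=
  1 ≤ p ∧ w 0 = c ∧ τ 0 = false ∧ (∀ j, p ≤ j → w j = t0 ∧ τ j = false) ∧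
    ∀ j, 1 ≤ j → j < p → Ok P t0 w τ j (w j) (τ j)

section
variable {P : Par} {c t0 : ℝ} {p : ℕ} {w : ℕ → ℝ} {τ : ℕ → Bool}

lemma Valid.step_le (h : Valid P c t0 p w τ) (htc : t0 ≤ c) (j : ℕ) : w (j+1) ≤ w j := by
  obtain ⟨hp, h0, hτ0, hb, hok⟩ := h
  have hge : ∀ i, t0 ≤ w i := by
    intro i
    rcases Nat.lt_or_ge i p with h1 | h1
    · rcases Nat.eq_zero_or_pos i with h2 | h2
      · rw [h2, h0]; exact htc
      · exact (hok i h2 h1).1.le
    · rw [(hb i h1).1]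
  rcases Nat.lt_or_ge (j+1) p with h1 | h1
  · have := (hok (j+1) (by omega) h1).2.1
    simpa using this
  · rw [(hb (j+1) h1).1]
    exact hge j

lemma Valid.anti (h : Valid P c t0 p w τ) (htc : t0 ≤ c) : Antitone w :=
  antitone_nat_of_succ_le (h.step_le htc)

lemma Valid.ge (h : Valid P c t0 p w τ) (htc : t0 ≤ c) (i : ℕ) : t0 ≤ w i := by
  obtain ⟨hp, h0, hτ0, hb, hok⟩ := h
  rcases Nat.lt_or_ge i p with h1 | h1
  · rcases Nat.eq_zero_or_pos i with h2 | h2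
    · rw [h2, h0]; exact htc
    · exact (hok i h2 h1).1.le
  · rw [(hb i h1).1]

lemma Valid.le (h : Valid P c t0 p w τ) (htc : t0 ≤ c) (i : ℕ) : w i ≤ c := by
  have := h.anti htc (Nat.zero_le i)
  rw [h.2.1] at this
  exact this

/-- nonzero values of covectors in `V` are bounded below. -/
lemma sep (h : Valid P c t0 p w τ) (hpn : p ≤ P.n) (hc : |c| = 1) :
    ∀ l, l < p → ∀ v ∈ P.V, HasLevel v l → ev P.n v w ≠ 0 → ∀ b : ℝ, 0 < b → b ≤ 1 →
      (∀ l', 1 ≤ l' → l' ≤ l → τ l' = false → b ≤ mm P.n P.ρ τ l') →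
      P.θ ^ l * b ≤ |ev P.n v w| := by
  intro l
  induction l using Nat.strong_induction_on with
  | _ l ih =>
  intro hlp v hv hvl hne b hb0 hb1 hb
  have hθl : P.θ ^ l ≤ 1 := pow_le_one₀ P.hθ0.le P.hθ1
  have hθl0 : 0 < P.θ ^ l := pow_pos P.hθ0 _
  rcases Nat.eq_zero_or_pos l with hl0 | hl0
  · subst hl0
    rw [ev_eq (by omega) hvl]
    simp only [lam, range_zero, sum_empty, neg_zero, sub_zero, pow_zero, one_mul]
    rw [h.2.1, hc]
    exact hb1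
  · have hok := h.2.2.2.2 l hl0 hlp
    rcases hτ : τ l with _ | _
    · -- generic
      have h1 := (hok.2.2.2 hτ).2 v hv hvl
      rw [ev_eq (by omega) hvl]
      have h2 := hb l hl0 le_rfl hτ
      nlinarith
    · -- special
      obtain ⟨v', hv', hvl', he⟩ := hok.2.2.1 hτ
      have hev' : ev P.n v' w = 0 := by
        rw [ev_eq (by omega) hvl']; linarith
      have hvne : v ≠ v' := by
        rintro rfl
        exact hne hev'
      obtain ⟨a, ha, v'', hv'', l'', hl'', hvl'', hdiff⟩ := P.hclosed v hv v' hv' l hvl hvl' hvne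
      have h3 : ev P.n v w = a * ev P.n v'' w := by
        have : ev P.n v w - ev P.n v' w = a * ev P.n v'' w := by
          unfold ev
          rw [← sum_sub_distrib, mul_sum]
          apply sum_congr rfl
          intro i _
          have := hdiff i
          rw [← sub_mul, this]; ring
        rw [hev', sub_zero] at this
        exact this
      have hne'' : ev P.n v'' w ≠ 0 := by
        intro h0
        apply hne
        rw [h3, h0, mul_zero]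
      have h4 := ih l'' hl'' (by omega) v'' hv'' hvl'' hne'' b hb0 hb1
        (fun l' h1 h2 h3 => hb l' h1 (by omega) h3)
      rw [h3, abs_mul]
      have h5 : P.θ ^ l ≤ P.θ ^ (l''+1) := pow_le_pow_of_le_one P.hθ0.le P.hθ1 (by omega)
      calc P.θ ^ l * b ≤ P.θ ^ (l''+1) * b := by gcongr
        _ = P.θ * (P.θ ^ l'' * b) := by ring
        _ ≤ |a| * |ev P.n v'' w| := by
          apply mul_le_mul ha h4 (mul_nonneg (pow_nonneg P.hθ0.le _) hb0.le) (abs_nonneg _)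

/-- separation of special values at level `j`. -/
lemma sepS (h : Valid P c t0 p w τ) (hpn : p ≤ P.n) (hc : |c| = 1) {j : ℕ} (hj1 : 1 ≤ j)
    (hjp : j ≤ p) (hjn : j < P.n) {v v' : ℕ → ℝ} (hv : v ∈ P.V) (hv' : v' ∈ P.V) (hvl : HasLevel v j)
    (hvl' : HasLevel v' j) (hne : lam v w j ≠ lam v' w j) :
    16 * P.B * mm P.n P.ρ τ j ≤ |lam v w j - lam v' w j| := by
  have hvne : v ≠ v' := by
    rintro rfl; exact hne rfl
  obtain ⟨a, ha, v'', hv'', l'', hl'', hvl'', hdiff⟩ := P.hclosed v hv v' hv' j hvl hvl' hvne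
  have h3 : lam v w j - lam v' w j = - (a * ev P.n v'' w) := by
    have h4 : ev P.n v w - ev P.n v' w = a * ev P.n v'' w := by
      unfold ev
      rw [← sum_sub_distrib, mul_sum]
      apply sum_congr rfl
      intro i _
      have := hdiff i
      rw [← sub_mul, this]; ring
    rw [ev_eq hjn hvl, ev_eq hjn hvl'] at h4
    linarith
  have hne'' : ev P.n v'' w ≠ 0 := by
    intro h0
    apply hne
    rw [h0, mul_zero, neg_zero] at h3
    linarith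
  have hρ0 := P.hρ0
  have hρ1 := P.rho_le_one
  have hm0 : 0 < mm P.n P.ρ τ j := mm_pos hρ0 j
  have h4 := sep h hpn hc l'' (by omega) v'' hv'' hvl'' hne'' (mm P.n P.ρ τ j / P.ρ)
    (by positivity) (by rw [div_le_one hρ0]; exact mm_le_rho hρ0 hρ1)
    (fun l' h1 h2 h3 => by
      rw [div_le_iff₀ hρ0, mul_comm]
      exact mm_generic hρ0 hρ1 (by omega) (by omega) h3)
  rw [h3, abs_neg, abs_mul]
  have h5 : P.θ ^ P.n ≤ P.θ ^ (l''+1) := pow_le_pow_of_le_one P.hθ0.le P.hθ1 (by omega)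
  have h6 := P.hρ1
  calc 16 * P.B * mm P.n P.ρ τ j = (16 * P.B * P.ρ) * (mm P.n P.ρ τ j / P.ρ) := by
        field_simp
    _ ≤ P.θ ^ P.n * (mm P.n P.ρ τ j / P.ρ) := by gcongr
    _ ≤ P.θ ^ (l''+1) * (mm P.n P.ρ τ j / P.ρ) := by gcongr
    _ = P.θ * (P.θ ^ l'' * (mm P.n P.ρ τ j / P.ρ)) := by ring
    _ ≤ |a| * |ev P.n v'' w| := by
      apply mul_le_mul ha h4 (mul_nonneg (pow_nonneg P.hθ0.le _) (by positivity)) (abs_nonneg _)

/-- the net lemma at position `j`. -/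
lemma netOk (h : Valid P c t0 p w τ) (hpn : p ≤ P.n) (hc : |c| = 1) {j : ℕ} (hj1 : 1 ≤ j)
    (hjp : j ≤ p) (hjn : j < P.n) {y : ℝ} (hy : y < w (j-1)) (hyt : t0 ≤ y) :
    ∃ t b, y < t ∧ Ok P t0 w τ j t b ∧
      (t - (if b then mm P.n P.ρ τ j else dl P.n P.ρ) ≤ y + mm P.n P.ρ τ j) ∧
      ((∃ z : ℤ, y = dl P.n P.ρ * z) → (∀ v ∈ P.V, HasLevel v j → mm P.n P.ρ τ j ≤ |y - lam v w j|) →
        y + dl P.n P.ρ ≤ t ∧ t - (if b then mm P.n P.ρ τ j else dl P.n P.ρ) ≤ y + dl P.n P.ρ) ∧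
      ((∃ v ∈ P.V, HasLevel v j ∧ y = lam v w j) → y + dl P.n P.ρ ≤ t) := by
  set S : Set ℝ := {s | ∃ v ∈ P.V, HasLevel v j ∧ s = lam v w j} with hS
  have hρ0 := P.hρ0
  have hρ1 := P.rho_le_one
  have hm0 : 0 < mm P.n P.ρ τ j := mm_pos hρ0 j
  have hd0 : 0 < dl P.n P.ρ := dl_pos hρ0
  have hdm : dl P.n P.ρ ≤ P.ρ * mm P.n P.ρ τ j := dl_le_mm hρ0 hρ1 (by omega)
  have hρ16 := P.rho_le
  have hqS : w (j-1) ∈ S := ⟨tie j, P.htie j hj1 hjn, tie_level j, (lam_tie hj1).symm⟩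
  obtain ⟨t, h1, h2, h3, h4, h5⟩ := net (S := S) (q := w (j-1)) (y := y) (m := mm P.n P.ρ τ j)
    (δ := dl P.n P.ρ) hqS hy hd0 (by nlinarith) (by
      rintro s ⟨v, hv, hvl, rfl⟩ s' ⟨v', hv', hvl', rfl⟩ hne
      have := sepS h hpn hc hj1 hjp hjn hv hv' hvl hvl' hne
      have := P.hB
      nlinarith)
  have h5' : (∃ z : ℤ, y = dl P.n P.ρ * z) →
      (∀ v ∈ P.V, HasLevel v j → mm P.n P.ρ τ j ≤ |y - lam v w j|) → y + dl P.n P.ρ ≤ t := by
    intro hz hv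
    apply h5
    refine ⟨hz, ?_⟩
    rintro s ⟨v, hv1, hv2, rfl⟩
    exact hv v hv1 hv2
  rcases h3 with ⟨htS, h6⟩ | ⟨hz, hfar, h6⟩
  · refine ⟨t, true, h1, ⟨by linarith, h2, fun _ => htS, fun hb => by simp at hb⟩, ?_, ?_, h4⟩
    · simp only [if_true]; nlinarith
    · intro hz hv
      refine ⟨h5' hz hv, ?_⟩
      simp only [if_true]; exact h6
  · refine ⟨t, false, h1, ⟨by linarith, h2, fun hb => by simp at hb, fun _ => ⟨hz, ?_⟩⟩, ?_, ?_, h4⟩
    · intro v hv hvl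
      exact hfar _ ⟨v, hv, hvl, rfl⟩
    · simp only [Bool.false_eq_true, if_false]
      rcases h6 with h6 | ⟨h6, -⟩ <;> nlinarith
    · intro hz hv
      refine ⟨h5' hz hv, ?_⟩
      simp only [Bool.false_eq_true, if_false]
      rcases h6 with h6 | ⟨-, s, ⟨v, hv1, hv2, rfl⟩, hs⟩
      · linarith
      · have := hv v hv1 hv2
        linarith

end

end Crest.Agent.S0122H
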