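import Crest.Agent.S0122H.Core

set_option autoImplicit false

namespace Crest.Agent.S0122H

open Finset

noncomputable def cost (P : Par) (Λ : ℝ) (p : ℕ) (w : ℕ → ℝ) (τ : ℕ → Bool) : ℝ :=
  ∑ j ∈ Ico 1 p, Real.exp (Λ * (w j - mu P.n P.ρ τ j))

noncomputable def En (P : Par) (k : ℕ) (Λ : ℝ) (u : ℕ → ℝ) (p : ℕ) (w : ℕ → ℝ) (τ : ℕ → Bool) : ℝ :=
  ∑ j ∈ Ico 0 k, w j * Real.exp (Λ * u j) - cost P Λ p w τ

lemma mu_congr (n : ℕ) (ρ : ℝ) {τ τ' : ℕ → Bool} {j : ℕ} (h : ∀ i, i ≤ j → τ i = τ' i) :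
    mu n ρ τ j = mu n ρ τ' j := by
  unfold mu mm
  rw [h j le_rfl, ee_congr n (fun i hi => h i hi.le)]

lemma mm_congr (n : ℕ) (ρ : ℝ) {τ τ' : ℕ → Bool} {j : ℕ} (h : ∀ i, i < j → τ i = τ' i) :
    mm n ρ τ j = mm n ρ τ' j := by
  unfold mm
  rw [ee_congr n h]

section
variable {P : Par} {c t0 Λ : ℝ} {p k : ℕ} {w u : ℕ → ℝ} {τ : ℕ → Bool}

lemma valid_trunc (h : Valid P c t0 p w τ) {i : ℕ} (hi1 : 1 ≤ i) (hip : i ≤ p) :
    Valid P c t0 i (fun j => if j < i then w j else t0) (fun j => if j < i then τ j else false) := by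
  obtain ⟨hp, h0, hτ0, hb, hok⟩ := h
  refine ⟨hi1, ?_, ?_, ?_, ?_⟩
  · simp only [show 0 < i by omega, if_true]; exact h0
  · simp only [show 0 < i by omega, if_true]; exact hτ0
  · intro j hj
    simp [show ¬ j < i by omega]
  · intro j hj1 hji
    have := (hok j hj1 (by omega)).congr (w' := fun j => if j < i then w j else t0)
      (τ' := fun j => if j < i then τ j else false) hj1
      (fun l hl => by simp [show l < i by omega]) (fun l hl => by simp [show l < i by omega])
    simpa only [hji, if_true] using this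

lemma valid_raise (h : Valid P c t0 p w τ) {i : ℕ} (hi1 : 1 ≤ i) (hip : i ≤ p) (hik : i < k)
    (hkn : k ≤ P.n) {t : ℝ} {b : Bool} (hOk : Ok P t0 w τ i t b) :
    Valid P c t0 k (fun j => if j < i then w j else if j < k then t else t0)
      (fun j => if j < i then τ j else if j = i then b else if j < k then true else false) := by
  obtain ⟨hp, h0, hτ0, hb, hok⟩ := h
  refine ⟨by omega, ?_, ?_, ?_, ?_⟩
  · simp only [show 0 < i by omega, if_true]; exact h0
  · simp only [show 0 < i by omega, if_true]; exact hτ0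
  · intro j hj
    simp [show ¬ j < i by omega, show ¬ j < k by omega, show ¬ j = i by omega]
  · intro j hj1 hjk
    rcases lt_trichotomy j i with hji | hji | hji
    · have := (hok j hj1 (by omega)).congr
        (w' := fun j => if j < i then w j else if j < k then t else t0)
        (τ' := fun j => if j < i then τ j else if j = i then b else if j < k then true else false) hj1
        (fun l hl => by simp [show l < i by omega]) (fun l hl => by simp [show l < i by omega])
      simpa only [hji, if_true] using this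
    · subst hji
      have := hOk.congr
        (w' := fun l => if l < j then w l else if l < k then t else t0)
        (τ' := fun l => if l < j then τ l else if l = j then b else if l < k then true else false) hj1
        (fun l hl => by simp [hl]) (fun l hl => by simp [hl])
      simpa only [lt_irrefl, if_false, hjk, if_true] using this
    · have e1 : (if j < i then w j else if j < k then t else t0) = t := by
        simp [show ¬ j < i by omega, hjk]
      have e2 : (if j < i then τ j else if j = i then b else if j < k then true else false) = true := by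
        simp [show ¬ j < i by omega, hjk, show ¬ j = i by omega]
      have e3 : (if j - 1 < i then w (j-1) else if j - 1 < k then t else t0) = t := by
        simp [show ¬ j - 1 < i by omega, show j - 1 < k by omega]
      simp only [e1, e2]
      refine ⟨hOk.1, ?_, ?_, ?_⟩
      · show t ≤ (if j - 1 < i then w (j-1) else if j - 1 < k then t else t0)
        rw [e3]
      · intro _
        refine ⟨tie j, P.htie j hj1 (by omega), tie_level j, ?_⟩
        rw [lam_tie hj1]
        exact e3.symm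
      · intro hb'; simp at hb'

lemma claimA (h : Valid P c t0 p w τ) (hpk : p ≤ k)
    (hmax : ∀ p' w' τ', p' ≤ k → Valid P c t0 p' w' τ' → En P k Λ u p' w' τ' ≤ En P k Λ u p w τ)
    {i : ℕ} (hi1 : 1 ≤ i) (hip : i < p) :
    Real.exp (Λ * (w i - mu P.n P.ρ τ i)) ≤ ∑ j ∈ Ico i k, (w j - t0) * Real.exp (Λ * u j) := by
  have h1 := hmax i _ _ (by omega) (valid_trunc h hi1 hip.le)
  unfold En cost at h1
  have e1 : ∑ j ∈ Ico 0 k, (if j < i then w j else t0) * Real.exp (Λ * u j) =
      ∑ j ∈ Ico 0 i, w j * Real.exp (Λ * u j) + ∑ j ∈ Ico i k, t0 * Real.exp (Λ * u j) := by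
    rw [← sum_Ico_consecutive _ (Nat.zero_le i) (show i ≤ k by omega)]
    congr 1
    · apply sum_congr rfl
      intro j hj
      simp [(mem_Ico.mp hj).2]
    · apply sum_congr rfl
      intro j hj
      simp [(mem_Ico.mp hj).1]
  have e2 : ∑ j ∈ Ico 0 k, w j * Real.exp (Λ * u j) =
      ∑ j ∈ Ico 0 i, w j * Real.exp (Λ * u j) + ∑ j ∈ Ico i k, w j * Real.exp (Λ * u j) :=
    (sum_Ico_consecutive _ (Nat.zero_le i) (show i ≤ k by omega)).symm
  have e3 : ∑ j ∈ Ico 1 i, Real.exp (Λ * ((if j < i then w j else t0) -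
      mu P.n P.ρ (fun j => if j < i then τ j else false) j)) =
      ∑ j ∈ Ico 1 i, Real.exp (Λ * (w j - mu P.n P.ρ τ j)) := by
    apply sum_congr rfl
    intro j hj
    have := (mem_Ico.mp hj).2
    rw [mu_congr P.n P.ρ (τ := fun j => if j < i then τ j else false) (τ' := τ)
      (fun l hl => by simp [show l < i by omega])]
    simp [this]
  have e4 : ∑ j ∈ Ico 1 p, Real.exp (Λ * (w j - mu P.n P.ρ τ j)) =
      ∑ j ∈ Ico 1 i, Real.exp (Λ * (w j - mu P.n P.ρ τ j)) +
      ∑ j ∈ Ico i p, Real.exp (Λ * (w j - mu P.n P.ρ τ j)) :=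
    (sum_Ico_consecutive _ hi1 hip.le).symm
  have e5 : Real.exp (Λ * (w i - mu P.n P.ρ τ i)) ≤
      ∑ j ∈ Ico i p, Real.exp (Λ * (w j - mu P.n P.ρ τ j)) :=
    single_le_sum (f := fun j => Real.exp (Λ * (w j - mu P.n P.ρ τ j)))
      (fun j _ => (Real.exp_pos _).le) (mem_Ico.mpr ⟨le_rfl, hip⟩)
  have e6 : ∑ j ∈ Ico i k, (w j - t0) * Real.exp (Λ * u j) =
      ∑ j ∈ Ico i k, w j * Real.exp (Λ * u j) - ∑ j ∈ Ico i k, t0 * Real.exp (Λ * u j) := by
    rw [← sum_sub_distrib]
    apply sum_congr rfl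
    intro j _; ring
  rw [e1, e2, e3, e4] at h1
  rw [e6]
  linarith

lemma claimB (h : Valid P c t0 p w τ) (htc : t0 ≤ c) (hpk : p ≤ k) (hkn : k ≤ P.n) (hΛ : 0 ≤ Λ)
    (hmax : ∀ p' w' τ', p' ≤ k → Valid P c t0 p' w' τ' → En P k Λ u p' w' τ' ≤ En P k Λ u p w τ)
    {i : ℕ} (hi1 : 1 ≤ i) (hip : i ≤ p) (hik : i < k) {t : ℝ} {b : Bool}
    (hOk : Ok P t0 w τ i t b) (hwt : w i ≤ t) :
    (t - w i) * Real.exp (Λ * u i) ≤
      k * Real.exp (Λ * (t - (if b then mm P.n P.ρ τ i else dl P.n P.ρ))) := by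
  have hv := valid_raise (k := k) h hi1 hip hik hkn hOk
  have h1 := hmax k _ _ le_rfl hv
  set w' : ℕ → ℝ := fun j => if j < i then w j else if j < k then t else t0 with hw'
  set τ' : ℕ → Bool := fun j => if j < i then τ j else if j = i then b else
    if j < k then true else false with hτ'
  unfold En cost at h1
  set m0 : ℝ := (if b then mm P.n P.ρ τ i else dl P.n P.ρ) with hm0
  have hρ0 := P.hρ0
  have hρ1 := P.rho_le_one
  have hmu_i : mu P.n P.ρ τ' i = m0 := by
    unfold mu
    have : τ' i = b := by simp [hτ']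
    rw [this, hm0, mm_congr P.n P.ρ (τ := τ') (τ' := τ) (fun l hl => by simp [hτ', hl])]
  have e1 : ∑ j ∈ Ico 0 k, w' j * Real.exp (Λ * u j) =
      ∑ j ∈ Ico 0 i, w j * Real.exp (Λ * u j) + ∑ j ∈ Ico i k, t * Real.exp (Λ * u j) := by
    rw [← sum_Ico_consecutive _ (Nat.zero_le i) (show i ≤ k by omega)]
    congr 1
    · apply sum_congr rfl
      intro j hj
      simp [hw', (mem_Ico.mp hj).2]
    · apply sum_congr rfl
      intro j hj
      have := mem_Ico.mp hj
      simp [hw', this.2, show ¬ j < i by omega]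
  have e2 : ∑ j ∈ Ico 0 k, w j * Real.exp (Λ * u j) =
      ∑ j ∈ Ico 0 i, w j * Real.exp (Λ * u j) + ∑ j ∈ Ico i k, w j * Real.exp (Λ * u j) :=
    (sum_Ico_consecutive _ (Nat.zero_le i) (show i ≤ k by omega)).symm
  have e3 : ∑ j ∈ Ico 1 k, Real.exp (Λ * (w' j - mu P.n P.ρ τ' j)) =
      ∑ j ∈ Ico 1 i, Real.exp (Λ * (w j - mu P.n P.ρ τ j)) +
      ∑ j ∈ Ico i k, Real.exp (Λ * (w' j - mu P.n P.ρ τ' j)) := by
    rw [← sum_Ico_consecutive _ hi1 (show i ≤ k by omega)]
    congr 1
    apply sum_congr rfl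
    intro j hj
    have hj2 := (mem_Ico.mp hj).2
    rw [mu_congr P.n P.ρ (τ := τ') (τ' := τ)
      (fun l hl => by simp [hτ', show l < i by omega])]
    simp [hw', hj2]
  have e4 : ∑ j ∈ Ico 1 p, Real.exp (Λ * (w j - mu P.n P.ρ τ j)) =
      ∑ j ∈ Ico 1 i, Real.exp (Λ * (w j - mu P.n P.ρ τ j)) +
      ∑ j ∈ Ico i p, Real.exp (Λ * (w j - mu P.n P.ρ τ j)) :=
    (sum_Ico_consecutive _ hi1 hip).symm
  have e5 : 0 ≤ ∑ j ∈ Ico i p, Real.exp (Λ * (w j - mu P.n P.ρ τ j)) :=
    sum_nonneg (fun j _ => (Real.exp_pos _).le)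
  have e6 : (t - w i) * Real.exp (Λ * u i) ≤
      ∑ j ∈ Ico i k, t * Real.exp (Λ * u j) - ∑ j ∈ Ico i k, w j * Real.exp (Λ * u j) := by
    rw [← sum_sub_distrib]
    have : (t - w i) * Real.exp (Λ * u i) = t * Real.exp (Λ * u i) - w i * Real.exp (Λ * u i) := by
      ring
    rw [this]
    apply single_le_sum (f := fun j => t * Real.exp (Λ * u j) - w j * Real.exp (Λ * u j))
      (fun j hj => ?_) (mem_Ico.mpr ⟨le_rfl, hik⟩)
    have h2 : w j ≤ w i := h.anti htc (mem_Ico.mp hj).1
    have h3 := Real.exp_pos (Λ * u j)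
    nlinarith
  have e7 : ∑ j ∈ Ico i k, Real.exp (Λ * (w' j - mu P.n P.ρ τ' j)) ≤ k * Real.exp (Λ * (t - m0)) := by
    calc ∑ j ∈ Ico i k, Real.exp (Λ * (w' j - mu P.n P.ρ τ' j))
        ≤ ∑ j ∈ Ico i k, Real.exp (Λ * (t - m0)) := by
          apply sum_le_sum
          intro j hj
          have hj' := mem_Ico.mp hj
          apply Real.exp_le_exp.mpr
          apply mul_le_mul_of_nonneg_left _ hΛ
          have hw'j : w' j = t := by simp [hw', hj'.2, show ¬ j < i by omega]
          rw [hw'j]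
          have : m0 ≤ mu P.n P.ρ τ' j := by
            rcases Nat.eq_or_lt_of_le hj'.1 with h2 | h2
            · rw [← h2, hmu_i]
            · rw [← hmu_i]
              have h3 : mu P.n P.ρ τ' i ≤ P.ρ * mm P.n P.ρ τ' j := mu_le_mm hρ0 hρ1 h2 (by omega)
              have h4 : mu P.n P.ρ τ' j = mm P.n P.ρ τ' j := by
                unfold mu
                have : τ' j = true := by
                  simp [hτ', show ¬ j < i by omega, show ¬ j = i by omega, hj'.2]
                simp [this]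
              rw [h4]
              have h5 := mm_pos (n := P.n) (τ := τ') hρ0 j
              nlinarith
          linarith
      _ = (k - i : ℕ) * Real.exp (Λ * (t - m0)) := by
          rw [sum_const, Nat.card_Ico, nsmul_eq_mul]
      _ ≤ k * Real.exp (Λ * (t - m0)) := by
          apply mul_le_mul_of_nonneg_right _ (Real.exp_pos _).le
          exact_mod_cast Nat.sub_le k i
  rw [e1, e2, e3, e4] at h1
  linarith

end

end Crest.Agent.S0122H
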