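import Crest.Agent.S0122H.Asm1

set_option autoImplicit false

namespace Crest.Agent.S0122H

open Finset

structure Consts (P : Par) (A Q M Λ : ℝ) (m : ℕ) : Prop where
  hn : 1 ≤ P.n
  hA : 1 ≤ A
  hQ1 : 1 ≤ Q
  hQA : Q ^ P.n ≤ A
  hQ : 4 * P.B ≤ dl P.n P.ρ * Q
  hQ2 : 2 ≤ Q
  hB : (m : ℝ) * P.n ≤ P.B
  hbox : ∀ ζ : ℕ → ℤ, (∀ j, |ζ j| ≤ m) → (∀ j, P.n ≤ j → ζ j = 0) → ∀ i, i < P.n → ζ i ≠ 0 →
    (∀ j, i < j → ζ j = 0) → (fun j => (ζ j : ℝ) / ζ i) ∈ P.V
  hΛ0 : 0 < Λ
  hΛ1 : (A + 4) * P.n ≤ Real.exp (Λ * (dl P.n P.ρ / 4))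
  hΛ2 : P.n ≤ dl P.n P.ρ * Real.exp (Λ * (dl P.n P.ρ / 4))
  hΛ3 : 2 * (A + 4) * P.n ≤ Real.exp Λ
  hM : M ≤ dl P.n P.ρ * Λ

section
variable {P : Par} {A Q M Λ : ℝ} {m : ℕ} {y : Fin P.n → ℝ}

/-- in sorted position -/
lemma facet_sorted (C : Consts P A Q M Λ m) (hy : InK P Q (-(A+3)) Λ y)
    {k : ℕ} {σ : Fin k → Fin P.n} {c : ℝ} {p : ℕ} {w : ℕ → ℝ} {τ : ℕ → Bool}
    (hx : Adm P (-(A+3)) (⟨k, σ⟩, c, p, w, τ))
    (hact : LHS (⟨k, σ⟩, c, p, w, τ) y = hfun P Q (⟨k, σ⟩, c, p, w, τ) Λ)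
    (hsort : Antitone (fun j => y (σ j)))
    (ξ : Fin P.n → ℤ) (hξ : ∀ j, |ξ j| ≤ m)
    (hpos : 0 < LHS (⟨k, σ⟩, c, p, w, τ) (fun j => (ξ j : ℝ))) :
    dl P.n P.ρ * (Λ * scl Q P.n k) ≤ ∑ j : Fin k, ξ (σ j) * Real.log (y (σ j)) ∧
    (c = -1 → ∀ j : Fin k, y (σ j) ≤ Real.exp (-(Λ * scl Q P.n k))) := by
  obtain ⟨hk1, hkn, hσ, hc, hpk, hv⟩ := hx
  simp only at hk1 hkn hσ hc hpk hv
  simp only [LHS, hfun] at hact hpos
  have hn := C.hn
  have hA := C.hA
  have hQ1 := C.hQ1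
  have hΛ0 := C.hΛ0
  have ha1 : 1 ≤ scl Q P.n k := scl_ge_one hQ1 _ _
  set a := scl Q P.n k with ha
  set Λ' := Λ * a with hΛ'
  have hΛ'Λ : Λ ≤ Λ' := by rw [hΛ']; nlinarith
  have hΛ'0 : 0 < Λ' := by linarith
  have hd0 : 0 < dl P.n P.ρ := dl_pos P.hρ0
  have hcabs : |c| = 1 := by
    rcases hc with h | h
    · rw [h]; simp
    · rw [h.1]; simp
  have hcc : -1 ≤ c ∧ c ≤ 1 := abs_le.mp hcabs.le
  set t0 : ℝ := -(A+3) with ht0
  have htc : t0 ≤ c := by rw [ht0]; linarith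
  have hypos : ∀ i, 0 < y i := fun i => lt_of_lt_of_le (Real.exp_pos _) (inK_lower hn hy i)
  have hyup : ∀ i, y i ≤ P.n * Real.exp Λ := inK_upper hn (by rw [ht0]; linarith) hΛ0.le hy
    (fun i => (hypos i).le)
  set u : ℕ → ℝ := fun j => if hj : j < k then Real.log (y (σ ⟨j, hj⟩)) / Λ' else 0 with hu
  have hu' : ∀ j : Fin k, u j = Real.log (y (σ j)) / Λ' := by
    intro j
    simp [hu]
  have hexp : ∀ j : Fin k, Real.exp (Λ' * u j) = y (σ j) := by
    intro j
    rw [hu' j, mul_div_cancel₀ _ hΛ'0.ne', Real.exp_log (hypos _)]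
  -- bound for c = -1
  have hupper : c = -1 → ∀ j : Fin k, y (σ j) ≤ Real.exp (-Λ') := by
    intro hc1 j
    have h1 := cost_nonneg P Λ' p w τ
    have h2 : ∑ j : Fin k, (- w j) * y (σ j) ≤ Real.exp (-Λ') := by
      have : ∑ j : Fin k, (- w j) * y (σ j) = - ∑ j : Fin k, w j * y (σ j) := by
        rw [← sum_neg_distrib]; exact sum_congr rfl (fun j _ => by ring)
      rw [this, hact, hc1]
      simp only [neg_mul, one_mul, neg_add_rev, neg_neg]
      linarith
    have h3 : ∀ j : Fin k, y (σ j) ≤ (- w j) * y (σ j) := by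
      intro j
      have := hv.le htc j
      have := hypos (σ j)
      nlinarith
    have h4 : (- w j) * y (σ j) ≤ ∑ j : Fin k, (- w j) * y (σ j) :=
      single_le_sum (f := fun j : Fin k => (- w j) * y (σ j))
        (fun i _ => (hypos (σ i)).le.trans (h3 i)) (mem_univ j)
    exact (h3 j).trans (h4.trans h2)
  refine ⟨?_, hupper⟩
  -- energies
  have hEn : ∀ p' w' τ', En P k Λ' u p' w' τ' =
      ∑ j : Fin k, w' j * y (σ j) - cost P Λ' p' w' τ' := by
    intro p' w' τ'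
    unfold En
    rw [← Finset.range_eq_Ico]
    congr 1
    apply sum_conv
    intro j
    rw [hexp j]
  have hEact : En P k Λ' u p w τ = c * Real.exp (c * Λ') := by
    rw [hEn, hact]; ring
  have hmax : ∀ p' w' τ', p' ≤ k → Valid P c t0 p' w' τ' →
      En P k Λ' u p' w' τ' ≤ En P k Λ' u p w τ := by
    intro p' w' τ' hp' hv'
    rw [hEact, hEn]
    have := hy (⟨k, σ⟩, c, p', w', τ') ⟨hk1, hkn, hσ, hc, hp', hv'⟩
    simp only [LHS, hfun] at this
    linarith
  have humono : ∀ i j, i ≤ j → j < k → u j ≤ u i := by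
    intro i j hij hjk
    have h1 := hu' ⟨j, hjk⟩
    have h2 := hu' ⟨i, by omega⟩
    simp only at h1 h2
    rw [h1, h2]
    apply div_le_div_of_nonneg_right _ hΛ'0.le
    apply Real.log_le_log (hypos _)
    exact hsort (show (⟨i, by omega⟩ : Fin k) ≤ ⟨j, hjk⟩ from hij)
  have hulow : ∀ j, j < k → -A ≤ u j := by
    intro j hjk
    have h1 := hu' ⟨j, hjk⟩
    simp only at h1
    rw [h1, le_div_iff₀ hΛ'0]
    have h2 := inK_lower hn hy (σ ⟨j, hjk⟩)
    have h3 := (Real.le_log_iff_exp_le (hypos _)).mpr h2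
    have h4 : scl Q P.n 1 ≤ A := (scl_le_one_idx hQ1).trans C.hQA
    have h5 : Λ * scl Q P.n 1 ≤ A * Λ' := by
      calc Λ * scl Q P.n 1 ≤ Λ * A := by gcongr
        _ = A * Λ := by ring
        _ ≤ A * Λ' := by gcongr
    linarith
  set ε := dl P.n P.ρ / 4 with hε
  have hεpos : 0 < ε := by rw [hε]; linarith
  have hexpmono : Real.exp (Λ * ε) ≤ Real.exp (Λ' * ε) := by
    apply Real.exp_le_exp.mpr; gcongr
  have hknR : (k : ℝ) ≤ P.n := by exact_mod_cast hkn
  have hε2 : (A + 4) * k ≤ Real.exp (Λ' * ε) := by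
    calc (A + 4) * k ≤ (A + 4) * P.n := by
          apply mul_le_mul_of_nonneg_left hknR; linarith
      _ ≤ _ := C.hΛ1.trans hexpmono
  have hε3 : k ≤ dl P.n P.ρ * Real.exp (Λ' * ε) := by
    calc (k : ℝ) ≤ P.n := hknR
      _ ≤ dl P.n P.ρ * Real.exp (Λ * ε) := C.hΛ2
      _ ≤ _ := by gcongr
  have hexp0 : Real.exp (Λ' * u 0) = y (σ ⟨0, by omega⟩) := hexp ⟨0, by omega⟩
  have hy0max : ∀ j : Fin k, y (σ j) ≤ y (σ ⟨0, by omega⟩) := fun j => hsort (Fin.mk_le_of_le_val (Nat.zero_le _))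
  have hu0 : |u 0 - c| ≤ ε := by
    rw [abs_le]
    rcases hc with hc1 | ⟨hc1, hkn'⟩
    · constructor
      · -- lower
        have h1 := inK_first hy hk1 hkn hσ
        have h2 : Real.exp (Λ' * (-1)) ≤ ((A + 4) * k) * Real.exp (Λ' * u 0) := by
          rw [hexp0]
          have h3 : Real.exp (-Λ') ≤ ∑ j : Fin k, (A + 4) * y (σ ⟨0, by omega⟩) := by
            have h4 : - ∑ j : Fin k, (if (j : ℕ) = 0 then (-1:ℝ) else t0) * y (σ j) ≤
                ∑ j : Fin k, (A + 4) * y (σ ⟨0, by omega⟩) := by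
              rw [← sum_neg_distrib]
              apply sum_le_sum
              intro j _
              have h5 := hy0max j
              have h6 := hypos (σ j)
              split_ifs
              · nlinarith
              · rw [ht0]; nlinarith
            linarith
          rw [sum_const, card_univ, Fintype.card_fin, nsmul_eq_mul] at h3
          calc Real.exp (Λ' * (-1)) = Real.exp (-Λ') := by ring_nf
            _ ≤ _ := h3
            _ = _ := by ring
        have := exp_mul_le_imp hΛ'0 hε2 h2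
        rw [hc1]; linarith
      · have h1 := hupper hc1 ⟨0, by omega⟩
        rw [← hexp0, Real.exp_le_exp] at h1
        have : u 0 ≤ -1 := by
          have : Λ' * u 0 ≤ Λ' * (-1) := by linarith
          exact le_of_mul_le_mul_left this hΛ'0
        rw [hc1]; linarith
    · have haeq : a = 1 := by rw [ha, hkn', scl_self]
      have hΛeq : Λ' = Λ := by rw [hΛ', haeq, mul_one]
      constructor
      · have h1 := cost_nonneg P Λ' p w τ
        have h2 : Real.exp Λ' ≤ ∑ j : Fin k, w j * y (σ j) := by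
          rw [hact, hc1]; simp only [one_mul]; linarith
        have h3 : ∑ j : Fin k, w j * y (σ j) ≤ ∑ j : Fin k, y (σ ⟨0, by omega⟩) := by
          apply sum_le_sum
          intro j _
          have h4 := hv.le htc j
          have h5 := hypos (σ j)
          have h6 := hy0max j
          rw [hc1] at h4
          nlinarith
        rw [sum_const, card_univ, Fintype.card_fin, nsmul_eq_mul] at h3
        have h4 : Real.exp (Λ' * 1) ≤ ((A + 4) * k) * Real.exp (Λ' * u 0) := by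
          rw [hexp0, mul_one]
          have h5 := hypos (σ ⟨0, by omega⟩)
          have h6 : (0:ℝ) ≤ k := Nat.cast_nonneg k
          have h7 : (k:ℝ) ≤ (A + 4) * k := by nlinarith
          calc Real.exp Λ' ≤ _ := h2.trans h3
            _ ≤ _ := by gcongr
        have := exp_mul_le_imp hΛ'0 hε2 h4
        rw [hc1]; linarith
      · have h1 := hyup (σ ⟨0, by omega⟩)
        rw [← hexp0, ← hΛeq] at h1
        have h2 : Real.exp (Λ' * u 0) ≤ P.n * Real.exp (Λ' * 1) := by rw [mul_one]; exact h1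
        have h3 : (P.n : ℝ) ≤ Real.exp (Λ' * ε) := by
          have h4 : (0:ℝ) ≤ P.n := Nat.cast_nonneg _
          have h5 := C.hΛ1.trans hexpmono
          nlinarith
        have := exp_mul_le_imp hΛ'0 h3 h2
        rw [hc1]; linarith
  have hcore := core hv hcabs hA ht0 hpk hkn hΛ'0 humono hulow (le_of_eq rfl) hε2 hε3 hu0 hmax
  -- the covector
  set ζ : ℕ → ℤ := fun j => if hj : j < k then ξ (σ ⟨j, hj⟩) else 0 with hζ
  have hζ' : ∀ j : Fin k, ζ j = ξ (σ j) := by intro j; simp [hζ]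
  have hζbd : ∀ j, |ζ j| ≤ m := by
    intro j
    by_cases hj : j < k
    · simp only [hζ, hj, dif_pos]; exact hξ _
    · simp only [hζ, hj, dif_neg, not_false_eq_true, abs_zero]; positivity
  have hζz : ∀ j, k ≤ j → ζ j = 0 := by
    intro j hj
    simp [hζ, show ¬ j < k by omega]
  have hpos' : 0 < ∑ j ∈ range k, (ζ j : ℝ) * w j := by
    have : ∑ j ∈ range k, (ζ j : ℝ) * w j = ∑ j : Fin k, w j * (ξ (σ j) : ℝ) := by
      apply sum_conv
      intro j
      rw [hζ' j]; ring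
    rw [this]; exact hpos
  obtain ⟨j0, hj0⟩ : ∃ j, ζ j ≠ 0 := by
    by_contra hcon
    push Not at hcon
    rw [sum_eq_zero (fun j _ => by rw [hcon j]; simp)] at hpos'
    exact lt_irrefl _ hpos'
  have hj0k : j0 < k := by
    by_contra h
    exact hj0 (hζz j0 (by omega))
  set i := Nat.findGreatest (fun j => ζ j ≠ 0) k with hi
  have hiz : ζ i ≠ 0 := Nat.findGreatest_spec (P := fun j => ζ j ≠ 0) hj0k.le hj0
  have hik : i < k := by
    by_contra h
    exact hiz (hζz i (by omega))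
  have higt : ∀ j, i < j → ζ j = 0 := by
    intro j hj
    rcases Nat.lt_or_ge k j with h1 | h1
    · exact hζz j h1.le
    · by_contra hne
      have := Nat.le_findGreatest (P := fun j => ζ j ≠ 0) h1 hne
      omega
  have hizR : (ζ i : ℝ) ≠ 0 := by exact_mod_cast hiz
  have hvV := C.hbox ζ hζbd (fun j hj => hζz j (by omega)) i (by omega) hiz higt
  have hvl : HasLevel (fun j => (ζ j : ℝ) / ζ i) i := by
    constructor
    · simp [hizR]
    · intro j hj
      simp [higt j hj]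
  have hmul : ∀ j, (ζ i : ℝ) * ((ζ j : ℝ) / ζ i) = ζ j := by
    intro j
    field_simp
  have ha1' : 1 ≤ |(ζ i : ℝ)| := by
    have : 1 ≤ |ζ i| := Int.one_le_abs hiz
    exact_mod_cast this
  have hBsum : ∑ j ∈ range k, |(ζ i : ℝ) * ((ζ j : ℝ) / ζ i)| ≤ P.B := by
    calc ∑ j ∈ range k, |(ζ i : ℝ) * ((ζ j : ℝ) / ζ i)| ≤ ∑ j ∈ range k, (m : ℝ) := by
          apply sum_le_sum
          intro j _
          rw [hmul]
          exact_mod_cast hζbd j
      _ = k * m := by rw [sum_const, card_range, nsmul_eq_mul]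
      _ ≤ P.n * m := by gcongr
      _ ≤ P.B := by rw [mul_comm]; exact C.hB
  have hsgn := core_sign' hv hcabs hpk hkn hcore hvV hvl hik ha1' hBsum (by
    have : ∑ j ∈ range k, (ζ i : ℝ) * ((ζ j : ℝ) / ζ i) * w j = ∑ j ∈ range k, (ζ j : ℝ) * w j :=
      sum_congr rfl (fun j _ => by rw [hmul])
    rw [this]; exact hpos')
  have hfinal : ∑ j ∈ range k, (ζ i : ℝ) * ((ζ j : ℝ) / ζ i) * u j =
      (∑ j : Fin k, ξ (σ j) * Real.log (y (σ j))) / Λ' := by
    rw [sum_div]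
    apply sum_conv
    intro j
    rw [hmul, hu' j, hζ' j]; ring
  rw [hfinal, le_div_iff₀ hΛ'0] at hsgn
  exact hsgn

end

end Crest.Agent.S0122H
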