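import Crest.Agent.S0122H.Facet

set_option autoImplicit false

namespace Crest.Agent.S0122H

open Finset

section
variable {P : Par} {A Q M Λ : ℝ} {m : ℕ} {y : Fin P.n → ℝ}

theorem facet (C : Consts P A Q M Λ m) (hy : InK P Q (-(A+3)) Λ y)
    {x : Idx P.n} (hx : Adm P (-(A+3)) x) (hact : LHS x y = hfun P Q x Λ)
    (ξ : Fin P.n → ℤ) (hξ : ∀ j, |ξ j| ≤ m) (hpos : 0 < LHS x (fun j => (ξ j : ℝ))) :
    M ≤ ∑ j, ξ j * Real.log (y j) := by
  obtain ⟨⟨k, σ0⟩, c, p, w, τ⟩ := x
  have hx' := hx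
  obtain ⟨hk1, hkn, hσ0, hc, hpk, hv⟩ := hx'
  simp only at hk1 hkn hσ0 hc hpk hv
  have hA := C.hA
  have hcc : -1 ≤ c ∧ c ≤ 1 := by
    rcases hc with h | h
    · rw [h]; norm_num
    · rw [h.1]; norm_num
  have htc : -(A+3) ≤ c := by linarith
  have hanti : Antitone (fun j : Fin k => w j) := fun i j hij => hv.anti htc hij
  obtain ⟨r, hr1, hr2⟩ := exists_sort_of_active (fun j : Fin k => w j) (fun j => y (σ0 j)) hanti
    (H := hfun P Q (⟨k, σ0⟩, c, p, w, τ) Λ) (fun r => by
      have := hy (⟨k, σ0 ∘ r⟩, c, p, w, τ) ⟨hk1, hkn, hσ0.comp r.injective, hc, hpk, hv⟩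
      exact this) hact
  set σ : Fin k → Fin P.n := σ0 ∘ r with hσdef
  have hσ : Function.Injective σ := hσ0.comp r.injective
  have hsumr : ∀ F : Fin P.n → ℝ, ∑ j : Fin k, w j * F (σ j) = ∑ j : Fin k, w j * F (σ0 j) := by
    intro F
    have h1 : ∀ j : Fin k, w j = w (r j) := fun j => (congrFun hr2 j).symm
    calc ∑ j : Fin k, w j * F (σ j) = ∑ j : Fin k, w (r j) * F (σ0 (r j)) :=
          sum_congr rfl (fun j _ => by rw [← h1 j]; rfl)
      _ = _ := Equiv.sum_comp r (fun j : Fin k => w j * F (σ0 j))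
  have hAdm : Adm P (-(A+3)) (⟨k, σ⟩, c, p, w, τ) := ⟨hk1, hkn, hσ, hc, hpk, hv⟩
  obtain ⟨hS1, hup⟩ := facet_sorted C hy hAdm (by
      rw [show LHS (⟨k, σ⟩, c, p, w, τ) y = LHS (⟨k, σ0⟩, c, p, w, τ) y from hsumr y]
      exact hact) hr1 ξ hξ (by
      rw [show LHS (⟨k, σ⟩, c, p, w, τ) (fun j => (ξ j : ℝ)) =
        LHS (⟨k, σ0⟩, c, p, w, τ) (fun j => (ξ j : ℝ)) from hsumr (fun j => (ξ j : ℝ))]
      exact hpos)
  have hn := C.hn
  have hQ1 := C.hQ1
  have hΛ0 := C.hΛ0
  have hd0 : 0 < dl P.n P.ρ := dl_pos P.hρ0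
  have hd1 : dl P.n P.ρ ≤ 1 := (dl_le_rho P.hρ0 P.rho_le_one).trans P.rho_le_one
  have hypos : ∀ i, 0 < y i := fun i => lt_of_lt_of_le (Real.exp_pos _) (inK_lower hn hy i)
  have hyup : ∀ i, y i ≤ P.n * Real.exp Λ := inK_upper hn (by linarith) hΛ0.le hy
    (fun i => (hypos i).le)
  have himg : ∑ i ∈ univ.image σ, (ξ i : ℝ) * Real.log (y i) =
      ∑ j : Fin k, ξ (σ j) * Real.log (y (σ j)) := by
    rw [sum_image (fun a _ b _ h => hσ h)]
  have hsplit : ∑ i, (ξ i : ℝ) * Real.log (y i) =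
      ∑ i ∈ univ.image σ, (ξ i : ℝ) * Real.log (y i) +
      ∑ i ∈ (univ.image σ)ᶜ, (ξ i : ℝ) * Real.log (y i) := (sum_add_sum_compl _ _).symm
  have hcard : (univ.image σ).card = k := by
    rw [card_image_of_injective _ hσ, card_univ, Fintype.card_fin]
  rw [hsplit, himg]
  rcases Nat.eq_or_lt_of_le hkn with hkn' | hkn'
  · have hempty : (univ.image σ)ᶜ = ∅ := by
      rw [← card_eq_zero, card_compl, hcard, Fintype.card_fin]; omega
    rw [hempty, sum_empty, add_zero]
    refine le_trans ?_ hS1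
    rw [hkn', scl_self, mul_one]
    exact C.hM
  · have hc1 : c = -1 := by
      rcases hc with h | h
      · exact h
      · omega
    have hup' := hup hc1
    set a' := scl Q P.n (k+1) with ha'
    have ha'1 : 1 ≤ a' := scl_ge_one hQ1 _ _
    have hak : scl Q P.n k = Q * a' := scl_succ hkn'
    rw [hak] at hS1 hup'
    have hlog : ∀ i ∈ (univ.image σ)ᶜ, |Real.log (y i)| ≤ 2 * (Λ * a') := by
      intro i hi
      have hi' : ∀ j, σ j ≠ i := by
        intro j hj
        rw [mem_compl] at hi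
        exact hi (mem_image.mpr ⟨j, mem_univ _, hj⟩)
      have hnR : (1:ℝ) ≤ P.n := by exact_mod_cast hn
      have h3 := C.hΛ3
      have hexp2 : (2:ℝ) ≤ Real.exp Λ := by nlinarith
      have hnexp : (P.n : ℝ) ≤ Real.exp Λ := by nlinarith
      rw [abs_le]
      constructor
      · -- lower bound
        have hinj : Function.Injective (Fin.cons i σ : Fin (k+1) → Fin P.n) := by
          rw [Fin.cons_injective_iff]
          refine ⟨?_, hσ⟩
          rintro ⟨j, hj⟩
          exact hi' j hj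
        have h1 := inK_first hy (show 1 ≤ k + 1 by omega) (show k + 1 ≤ P.n by omega) hinj
        rw [Fin.sum_univ_succ] at h1
        simp only [Fin.val_zero, if_true, Fin.cons_zero, Fin.val_succ, Nat.add_eq_zero_iff,
          one_ne_zero, and_false, if_false, Fin.cons_succ] at h1
        have h2 : ∑ j : Fin k, -(A+3) * y (σ j) ≥ - ((A+3) * (k * Real.exp (-(Λ * (Q * a'))))) := by
          rw [← mul_sum]
          have h4 : ∑ j : Fin k, y (σ j) ≤ k * Real.exp (-(Λ * (Q * a'))) := by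
            calc ∑ j : Fin k, y (σ j) ≤ ∑ j : Fin k, Real.exp (-(Λ * (Q * a'))) :=
                  sum_le_sum (fun j _ => hup' j)
              _ = _ := by rw [sum_const, card_univ, Fintype.card_fin, nsmul_eq_mul]
          nlinarith
        have h5 : (A+3) * (k * Real.exp (-(Λ * (Q * a')))) ≤ Real.exp (-(Λ * a')) / 2 := by
          have h6 : Real.exp (-(Λ * (Q * a'))) ≤ Real.exp (-(Λ * a')) * Real.exp (-Λ) := by
            rw [← Real.exp_add]
            apply Real.exp_le_exp.mpr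
            have := C.hQ2
            have : Λ * (Q * a') ≥ Λ * a' + Λ := by nlinarith [mul_pos hΛ0 (show 0 < a' by linarith)]
            linarith
          have h7 : (A+3) * (k:ℝ) * Real.exp (-Λ) ≤ 1/2 := by
            rw [Real.exp_neg, ← div_eq_mul_inv, div_le_iff₀ (Real.exp_pos _)]
            have : (k:ℝ) ≤ P.n := by exact_mod_cast hkn
            nlinarith
          have h8 := Real.exp_pos (-(Λ * a'))
          have h9 : (0:ℝ) ≤ (A+3) * k := by positivity
          calc (A+3) * (k * Real.exp (-(Λ * (Q * a')))) = ((A+3) * k) * Real.exp (-(Λ * (Q * a'))) := by ring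
            _ ≤ ((A+3) * k) * (Real.exp (-(Λ * a')) * Real.exp (-Λ)) := by gcongr
            _ = ((A+3) * k * Real.exp (-Λ)) * Real.exp (-(Λ * a')) := by ring
            _ ≤ (1/2) * Real.exp (-(Λ * a')) := by gcongr
            _ = _ := by ring
        have h10 : Real.exp (-(Λ * a')) / 2 ≤ y i := by linarith
        have h11 : Real.exp (-(2 * (Λ * a'))) ≤ y i := by
          refine le_trans ?_ h10
          have h12 : Real.exp (-(2 * (Λ * a'))) = Real.exp (-(Λ * a')) * Real.exp (-(Λ * a')) := by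
            rw [← Real.exp_add]; ring_nf
          have h13 : Real.exp (-(Λ * a')) ≤ 1/2 := by
            rw [Real.exp_neg]
            rw [inv_le_comm₀ (Real.exp_pos _) (by norm_num)]
            have : Real.exp Λ ≤ Real.exp (Λ * a') := Real.exp_le_exp.mpr (by nlinarith)
            norm_num
            linarith
          rw [h12]
          have := Real.exp_pos (-(Λ * a'))
          nlinarith
        have := (Real.le_log_iff_exp_le (hypos i)).mpr h11
        linarith
      · have h1 : y i ≤ Real.exp (2 * Λ) := by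
          calc y i ≤ P.n * Real.exp Λ := hyup i
            _ ≤ Real.exp Λ * Real.exp Λ := by gcongr
            _ = Real.exp (2 * Λ) := by rw [← Real.exp_add]; ring_nf
        have h2 := (Real.log_le_iff_le_exp (hypos i)).mpr h1
        nlinarith
    have hrest : - (P.B * (2 * (Λ * a'))) ≤ ∑ i ∈ (univ.image σ)ᶜ, (ξ i : ℝ) * Real.log (y i) := by
      have h1 : ∀ i ∈ (univ.image σ)ᶜ, - (m * (2 * (Λ * a'))) ≤ (ξ i : ℝ) * Real.log (y i) := by
        intro i hi
        have h2 := hlog i hi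
        have h3 : |(ξ i : ℝ)| ≤ m := by exact_mod_cast hξ i
        have h4 : |(ξ i : ℝ) * Real.log (y i)| ≤ m * (2 * (Λ * a')) := by
          rw [abs_mul]
          exact mul_le_mul h3 h2 (abs_nonneg _) (Nat.cast_nonneg _)
        exact (abs_le.mp h4).1
      have h2 := card_nsmul_le_sum _ _ _ h1
      rw [nsmul_eq_mul] at h2
      refine le_trans ?_ h2
      have h3 : (((univ.image σ)ᶜ : Finset (Fin P.n)).card : ℝ) ≤ P.n := by
        have := card_le_univ ((univ.image σ)ᶜ)
        rw [Fintype.card_fin] at this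
        exact_mod_cast this
      have h4 := C.hB
      have h5 : 0 ≤ 2 * (Λ * a') := by positivity
      have h6 : (0:ℝ) ≤ m := Nat.cast_nonneg _
      have h7 : (((univ.image σ)ᶜ : Finset (Fin P.n)).card : ℝ) * (m * (2 * (Λ * a'))) ≤ P.B * (2 * (Λ * a')) := by
        calc (((univ.image σ)ᶜ : Finset (Fin P.n)).card : ℝ) * (m * (2 * (Λ * a')))
            ≤ P.n * (m * (2 * (Λ * a'))) := by gcongr
          _ = (m * P.n) * (2 * (Λ * a')) := by ring
          _ ≤ _ := by gcongr
      linarith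
    have hB1 := P.hB
    have hQ := C.hQ
    have hM := C.hM
    have h1 : dl P.n P.ρ * (Λ * (Q * a')) = (dl P.n P.ρ * Q) * (Λ * a') := by ring
    have h2 : (4 * P.B) * (Λ * a') ≤ (dl P.n P.ρ * Q) * (Λ * a') := by gcongr
    have h3 : Λ ≤ Λ * a' := by nlinarith
    have h4 : dl P.n P.ρ * Λ ≤ 2 * P.B * (Λ * a') := by nlinarith
    linarith

end

end Crest.Agent.S0122H
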