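import Mathlib

set_option autoImplicit false

namespace Crest.Agent.S0122H

open Set Filter Topology
open scoped NNReal

lemma global_exists {E : Type*} [NormedAddCommGroup E] [NormedSpace ℝ E] [CompleteSpace E]
    (F : E → E) {K L : ℝ≥0} (hK : LipschitzWith K F) (hL : ∀ x, ‖F x‖ ≤ L) (x0 : E) :
    ∃ x : ℝ → E, x 0 = x0 ∧ ∀ t, 0 ≤ t → HasDerivWithinAt x (F (x t)) (Ici 0) t := by
  have hloc : ∀ n : ℕ, ∃ α : ℝ → E, α 0 = x0 ∧
      ∀ t ∈ Icc (0:ℝ) (n+1), HasDerivWithinAt α (F (α t)) (Icc 0 (n+1)) t := by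
    intro n
    have h0 : (0:ℝ) ∈ Icc (0:ℝ) (n+1) := ⟨le_rfl, by positivity⟩
    have hPL : IsPicardLindelof (fun _ => F) (⟨0, h0⟩ : Icc (0:ℝ) (n+1)) x0 (L * (n+1)) 0 L K := by
      refine ⟨fun t _ => hK.lipschitzOnWith, fun x _ => continuousOn_const, fun t _ x _ => hL x, ?_⟩
      simp only [sub_zero, sub_self]
      rw [max_eq_left (by positivity)]
      simp
    exact hPL.exists_eq_forall_mem_Icc_hasDerivWithinAt₀
  choose α hα0 hα using hloc
  have hcont : ∀ n, ContinuousOn (α n) (Icc 0 (n+1)) := fun n t ht => (hα n t ht).continuousWithinAt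
  have hright : ∀ n : ℕ, ∀ t ∈ Ico (0:ℝ) (n+1), HasDerivWithinAt (α n) (F (α n t)) (Ici t) t := by
    intro n t ht
    have h1 := (hα n t ⟨ht.1, ht.2.le⟩).mono (show Icc t (n+1) ⊆ Icc 0 (n+1) from
      Icc_subset_Icc_left ht.1)
    exact h1.mono_of_mem_nhdsWithin (Icc_mem_nhdsGE ht.2)
  have hagree : ∀ m n : ℕ, m ≤ n → EqOn (α m) (α n) (Icc 0 (m+1)) := by
    intro m n hmn
    have hmnR : (m:ℝ) ≤ n := by exact_mod_cast hmn
    exact ODE_solution_unique (v := fun _ => F) (fun _ => hK) (hcont m) (hright m)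
      ((hcont n).mono (Icc_subset_Icc_right (by linarith)))
      (fun t ht => hright n t ⟨ht.1, lt_of_lt_of_le ht.2 (by linarith)⟩)
      (by rw [hα0, hα0])
  refine ⟨fun t => α ⌊t⌋₊ t, by simp [hα0], ?_⟩
  intro t ht
  set n := ⌊t⌋₊ + 1 with hn
  have htn : t < n := by
    have := Nat.lt_floor_add_one t
    rw [hn]; push_cast; exact this
  have heq : ∀ s : ℝ, 0 ≤ s → s < (n:ℝ) + 1 → α ⌊s⌋₊ s = α n s := by
    intro s hs0 hs
    apply hagree ⌊s⌋₊ n
    · have h1 : ⌊s⌋₊ < n + 1 := by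
        rw [Nat.floor_lt hs0]; push_cast; exact hs
      omega
    · exact ⟨hs0, (Nat.lt_floor_add_one s).le⟩
  have h1 : HasDerivWithinAt (α n) (F (α n t)) (Ici 0) t := by
    apply (hα n t ⟨ht, by linarith⟩).mono_of_mem_nhdsWithin
    have : Iio ((n:ℝ)+1) ∈ 𝓝[Ici 0] t := mem_nhdsWithin_of_mem_nhds (Iio_mem_nhds (by linarith))
    filter_upwards [this, self_mem_nhdsWithin] with s hs hs0
    exact ⟨hs0, le_of_lt hs⟩
  have h2 : α ⌊t⌋₊ t = α n t := heq t ht (by linarith)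
  show HasDerivWithinAt (fun t => α ⌊t⌋₊ t) (F (α ⌊t⌋₊ t)) (Ici 0) t
  rw [h2]
  refine HasDerivWithinAt.congr_of_eventuallyEq (f := α n) (f₁ := fun t => α ⌊t⌋₊ t) h1 ?_ h2
  have : Iio ((n:ℝ)+1) ∈ 𝓝[Ici 0] t := mem_nhdsWithin_of_mem_nhds (Iio_mem_nhds (by linarith))
  filter_upwards [this, self_mem_nhdsWithin] with s hs hs0
  exact heq s hs0 hs

lemma barrier {ι : Type*} [Finite ι] (g : ι → ℝ → ℝ) {a b : ℝ}
    (hcont : ∀ i, ContinuousOn (g i) (Icc a b)) (h0 : ∀ i, g i a ≤ 0)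
    (hstep : ∀ t ∈ Ico a b, (∀ i, g i t ≤ 0) → ∀ i, g i t = 0 →
      (∃ g' < 0, HasDerivWithinAt (g i) g' (Ici t) t) ∨ (∀ s ∈ Icc a b, g i s ≤ 0)) :
    ∀ t ∈ Icc a b, ∀ i, g i t ≤ 0 := by
  rcases lt_or_ge b a with hab | hab
  · intro t ht
    exact absurd (ht.1.trans ht.2) (not_le.mpr hab)
  have hsub : Icc a b ⊆ {t | ∀ i, g i t ≤ 0} := by
    apply IsClosed.Icc_subset_of_forall_mem_nhdsWithin
    · have : {t | ∀ i, g i t ≤ 0} ∩ Icc a b = Icc a b ∩ ⋂ i, (Icc a b ∩ g i ⁻¹' Iic 0) := by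
        ext t
        simp only [mem_inter_iff, mem_ofPred_eq, mem_iInter, mem_preimage, mem_Iic]
        constructor
        · rintro ⟨h1, h2⟩
          exact ⟨h2, fun i => ⟨h2, h1 i⟩⟩
        · rintro ⟨h1, h2⟩
          exact ⟨fun i => (h2 i).2, h1⟩
      rw [this]
      apply isClosed_Icc.inter
      apply isClosed_iInter
      intro i
      exact (hcont i).preimage_isClosed_of_isClosed isClosed_Icc isClosed_Iic
    · exact h0
    · intro t ht
      obtain ⟨ht1, ht2⟩ := ht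
      have ht1' : ∀ i, g i t ≤ 0 := ht1
      show ∀ᶠ s in 𝓝[>] t, ∀ i, g i s ≤ 0
      rw [eventually_all]
      intro i
      have hIcc : ∀ᶠ s in 𝓝[>] t, s ∈ Icc a b := by
        filter_upwards [Ioc_mem_nhdsGT ht2.2] with s hs
        exact ⟨ht2.1.trans hs.1.le, hs.2⟩
      rcases eq_or_lt_of_le (ht1' i) with h | h
      · rcases hstep t ht2 ht1' i h with ⟨g', hg', hd⟩ | hall
        · have h2 := (hasDerivWithinAt_iff_tendsto_slope' (lt_irrefl t)).1 hd.Ioi_of_Ici
          filter_upwards [h2.eventually_lt_const hg', self_mem_nhdsWithin] with s hs1 hs2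
          rw [slope_def_field, h, sub_zero] at hs1
          have hpos : 0 < s - t := sub_pos.mpr hs2
          by_contra hcon
          push Not at hcon
          have := div_pos hcon hpos
          linarith
        · filter_upwards [hIcc] with s hs
          exact hall s hs
      · have h2 : ContinuousWithinAt (g i) (Ioi t) t := by
          apply ((hcont i) t ⟨ht2.1, ht2.2.le⟩).mono_of_mem_nhdsWithin
          exact hIcc
        filter_upwards [h2.eventually_lt_const h] with s hs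
        exact hs.le
  exact fun t ht => hsub ht

end Crest.Agent.S0122H
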