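import Crest.Agent.S0122H.Network
import Crest.Agent.S0122H.ODE

set_option autoImplicit false

namespace Crest.Agent.S0122H

open Set Filter Topology Crest.AnalysisR.MassAction
open scoped NNReal

variable {d : ℕ}

lemma contDiff_field (R : Network d) (k : (Fin d → ℕ) × (Fin d → ℕ) → ℝ) :
    ContDiff ℝ 1 (field R k) := by
  unfold field
  apply ContDiff.sum
  intro r _
  have h1 : ContDiff ℝ 1 (fun x : Fin d → ℝ => k r * ∏ i, x i ^ (r.1 i)) := by
    apply contDiff_const.mul
    apply contDiff_prod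
    intro i _
    exact (contDiff_apply ℝ ℝ i).pow _
  exact h1.smul contDiff_const

lemma field_mem (R : Network d) (k : (Fin d → ℕ) × (Fin d → ℕ) → ℝ) (x : Fin d → ℝ) :
    field R k x ∈ stoichSubspace R := by
  unfold field stoichSubspace
  apply Submodule.sum_mem
  intro r hr
  apply Submodule.smul_mem
  apply Submodule.subset_span
  exact ⟨r, hr, rfl⟩

noncomputable def clampF (b : ℝ) (x : Fin d → ℝ) : Fin d → ℝ := fun i => max 0 (min b (x i))

lemma clampF_lip (b : ℝ) : LipschitzWith 1 (clampF b : (Fin d → ℝ) → (Fin d → ℝ)) := by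
  apply LipschitzWith.of_dist_le_mul
  intro x y
  rw [NNReal.coe_one, one_mul, dist_pi_le_iff dist_nonneg]
  intro i
  calc dist (clampF b x i) (clampF b y i) = |max 0 (min b (x i)) - max 0 (min b (y i))| := rfl
    _ ≤ |min b (x i) - min b (y i)| := by
        have := abs_max_sub_max_le_max 0 (min b (x i)) 0 (min b (y i))
        simpa using this
    _ ≤ |x i - y i| := by
        have := abs_min_sub_min_le_max b (x i) b (y i)
        simpa using this
    _ = dist (x i) (y i) := rfl
    _ ≤ dist x y := dist_le_pi_dist x y i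

lemma clampF_mem {b : ℝ} (hb : 0 ≤ b) (x : Fin d → ℝ) : clampF b x ∈ Icc (0 : Fin d → ℝ) (fun _ => b) := by
  constructor
  · intro i
    exact le_max_left _ _
  · intro i
    exact max_le hb (min_le_left _ _)

lemma clampF_eq {b : ℝ} {x : Fin d → ℝ} (hx : ∀ i, 0 ≤ x i ∧ x i ≤ b) : clampF b x = x := by
  funext i
  simp [clampF, (hx i).1, (hx i).2]

lemma field_lip (R : Network d) (k : (Fin d → ℕ) × (Fin d → ℕ) → ℝ) (b : ℝ) :
    ∃ K : ℝ≥0, LipschitzOnWith K (field R k) (Icc (0 : Fin d → ℝ) (fun _ => b)) := by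
  apply LocallyLipschitzOn.exists_lipschitzOnWith_of_compact isCompact_Icc
  exact (contDiff_field R k).locallyLipschitz.locallyLipschitzOn

lemma field_clamp (R : Network d) (k : (Fin d → ℕ) × (Fin d → ℕ) → ℝ) {b : ℝ} (hb : 0 ≤ b) :
    ∃ K L : ℝ≥0, LipschitzWith K (fun x => field R k (clampF b x)) ∧
      ∀ x, ‖field R k (clampF b x)‖ ≤ L := by
  obtain ⟨K, hK⟩ := field_lip R k b
  have hcomp : IsCompact (Icc (0 : Fin d → ℝ) (fun _ => b)) := isCompact_Icc
  obtain ⟨C, hC⟩ := (hcomp.image (contDiff_field R k).continuous).isBounded.exists_norm_le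
  refine ⟨K * 1, ⟨max C 0, le_max_right _ _⟩, ?_, ?_⟩
  · have h2 : LipschitzOnWith 1 (clampF b : (Fin d → ℝ) → (Fin d → ℝ)) univ :=
      (clampF_lip b).lipschitzOnWith
    have h3 := hK.comp h2 (fun x _ => clampF_mem hb x)
    rw [← lipschitzOnWith_univ]
    exact h3
  · intro x
    exact (hC _ ⟨_, clampF_mem hb x, rfl⟩).trans (le_max_left _ _)

end Crest.Agent.S0122H
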