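import Crest.Agent.S0122H.Sign

set_option autoImplicit false

namespace Crest.Agent.S0122H

open Finset

section
variable {P : Par} {c t0 : ℝ}

lemma valid_one (P : Par) (c t0 : ℝ) :
    Valid P c t0 1 (fun j => if j = 0 then c else t0) (fun _ => false) := by
  refine ⟨le_rfl, by simp, rfl, ?_, ?_⟩
  · intro j hj
    simp [show j ≠ 0 by omega]
  · intro j h1 h2
    omega

lemma finite_grid {δ a b : ℝ} (hδ : 0 < δ) : {t : ℝ | (∃ z : ℤ, t = δ * z) ∧ a < t ∧ t ≤ b}.Finite := by
  apply ((Set.finite_Icc (⌊a / δ⌋) (⌊b / δ⌋)).image (fun z : ℤ => δ * z)).subset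
  rintro t ⟨⟨z, rfl⟩, h1, h2⟩
  refine ⟨z, ⟨?_, ?_⟩, rfl⟩
  · have : a / δ < z := by rw [div_lt_iff₀ hδ]; linarith
    have h3 := Int.floor_le (a / δ)
    have : (⌊a / δ⌋ : ℝ) < z := by linarith
    exact_mod_cast this.le
  · rw [Int.le_floor, le_div_iff₀ hδ]; linarith

lemma finite_valid (P : Par) (c t0 : ℝ) (p : ℕ) :
    {x : (ℕ → ℝ) × (ℕ → Bool) | Valid P c t0 p x.1 x.2}.Finite := by
  induction p with
  | zero =>
    apply Set.Finite.subset Set.finite_empty
    rintro ⟨w, τ⟩ h
    have := h.1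
    omega
  | succ p ih =>
    rcases Nat.eq_zero_or_pos p with hp | hp
    · subst hp
      apply Set.Finite.subset (Set.finite_singleton
        ((fun j => if j = 0 then c else t0 : ℕ → ℝ), (fun _ => false : ℕ → Bool)))
      rintro ⟨w, τ⟩ ⟨h1, h2, h3, h4, h5⟩
      simp only [Set.mem_singleton_iff, Prod.mk.injEq]
      constructor
      · funext j
        rcases Nat.eq_zero_or_pos j with hj | hj
        · subst hj; simpa using h2
        · rw [if_neg (by omega)]
          exact (h4 j hj).1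
      · funext j
        rcases Nat.eq_zero_or_pos j with hj | hj
        · subst hj; exact h3
        · exact (h4 j hj).2
    · set F : (ℕ → ℝ) × (ℕ → Bool) → Set ℝ := fun x =>
        ((fun v => lam v x.1 p) '' P.V) ∪
          {t : ℝ | (∃ z : ℤ, t = dl P.n P.ρ * z) ∧ t0 < t ∧ t ≤ x.1 (p-1)} with hF
      have hFfin : ∀ x, (F x).Finite := fun x =>
        (P.hVfin.image _).union (finite_grid (dl_pos P.hρ0))
      have hbig : (⋃ x ∈ {x : (ℕ → ℝ) × (ℕ → Bool) | Valid P c t0 p x.1 x.2},
          (fun y : ℝ × Bool => ((Function.update x.1 p y.1, Function.update x.2 p y.2) :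
            (ℕ → ℝ) × (ℕ → Bool))) '' (F x ×ˢ (Set.univ : Set Bool))).Finite := by
        apply ih.biUnion
        intro x _
        exact ((hFfin x).prod Set.finite_univ).image _
      apply hbig.subset
      rintro ⟨w, τ⟩ h
      have h' : Valid P c t0 (p+1) w τ := h
      have htr := valid_trunc h' (i := p) hp (by omega)
      simp only [Set.mem_iUnion, Set.mem_setOf_eq]
      refine ⟨(fun j => if j < p then w j else t0, fun j => if j < p then τ j else false), htr,
        (w p, τ p), ⟨?_, Set.mem_univ _⟩, ?_⟩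
      · have hok := h'.2.2.2.2 p hp (by omega)
        rcases hτ : τ p with _ | _
        · right
          refine ⟨(hok.2.2.2 hτ).1, hok.1, ?_⟩
          have := hok.2.1
          simpa [show p - 1 < p by omega] using this
        · left
          obtain ⟨v, hv, hvl, he⟩ := hok.2.2.1 hτ
          refine ⟨v, hv, ?_⟩
          simp only
          rw [he]
          apply lam_congr
          intro i hi
          simp [hi]
      · simp only [Prod.mk.injEq]
        constructor
        · funext j
          rcases lt_trichotomy j p with hj | hj | hj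
          · simp [Function.update_apply, hj.ne, hj]
          · subst hj; simp
          · have h2 : ¬ j < p := by omega
            simp only [Function.update_apply, hj.ne', if_false, h2]
            exact ((h'.2.2.2.1 j (by omega)).1).symm
        · funext j
          rcases lt_trichotomy j p with hj | hj | hj
          · simp [Function.update_apply, hj.ne, hj]
          · subst hj; simp
          · have h2 : ¬ j < p := by omega
            simp only [Function.update_apply, hj.ne', if_false, h2]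
            exact ((h'.2.2.2.1 j (by omega)).2).symm

end

/-! ### Indices of the constraints -/

abbrev Idx (n : ℕ) : Type := (Σ k : ℕ, (Fin k → Fin n)) × ℝ × ℕ × (ℕ → ℝ) × (ℕ → Bool)

/-- admissible constraint indices -/
def Adm (P : Par) (t0 : ℝ) (x : Idx P.n) : Prop :=
  1 ≤ x.1.1 ∧ x.1.1 ≤ P.n ∧ Function.Injective x.1.2 ∧ (x.2.1 = -1 ∨ (x.2.1 = 1 ∧ x.1.1 = P.n)) ∧
    x.2.2.1 ≤ x.1.1 ∧ Valid P x.2.1 t0 x.2.2.1 x.2.2.2.1 x.2.2.2.2

lemma finite_sigma (n N : ℕ) : {s : Σ k : ℕ, (Fin k → Fin n) | s.1 ≤ N}.Finite := by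
  have : {s : Σ k : ℕ, (Fin k → Fin n) | s.1 ≤ N} ⊆
      ⋃ k ∈ Set.Iic N, Set.range (fun f : Fin k → Fin n => (⟨k, f⟩ : Σ k : ℕ, (Fin k → Fin n))) := by
    rintro ⟨k, f⟩ hk
    simp only [Set.mem_iUnion]
    exact ⟨k, hk, f, rfl⟩
  apply Set.Finite.subset _ this
  apply (Set.finite_Iic N).biUnion
  intro k _
  exact Set.finite_range _

lemma finite_adm (P : Par) (t0 : ℝ) : {x : Idx P.n | Adm P t0 x}.Finite := by
  have h1 : {x : Idx P.n | Adm P t0 x} ⊆
      ({s : Σ k : ℕ, (Fin k → Fin P.n) | s.1 ≤ P.n} ×ˢ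
        (⋃ c ∈ ({-1, 1} : Set ℝ), ⋃ p ∈ Set.Iic P.n,
          (fun y : (ℕ → ℝ) × (ℕ → Bool) => ((c, p, y.1, y.2) : ℝ × ℕ × (ℕ → ℝ) × (ℕ → Bool))) ''
            {y : (ℕ → ℝ) × (ℕ → Bool) | Valid P c t0 p y.1 y.2})) := by
    rintro ⟨⟨k, σ⟩, c, p, w, τ⟩ ⟨h1, h2, h3, h4, h5, h6⟩
    refine ⟨h2, ?_⟩
    simp only [Set.mem_iUnion]
    refine ⟨c, ?_, p, h5.trans h2, (w, τ), h6, rfl⟩
    rcases h4 with h4 | h4
    · left; exact h4
    · right; exact h4.1
  apply Set.Finite.subset _ h1
  apply (finite_sigma _ _).prod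
  apply (Set.toFinite _).biUnion
  intro c _
  apply (Set.finite_Iic _).biUnion
  intro p _
  exact (finite_valid P c t0 p).image _

end Crest.Agent.S0122H
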