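import Crest.Agent.S0122H.Exchange

set_option autoImplicit false

namespace Crest.Agent.S0122H

open Finset

section
variable {P : Par} {c t0 Λ A ε : ℝ} {p k : ℕ} {w u : ℕ → ℝ} {τ : ℕ → Bool}

lemma exp_mul_le_imp {Λ a b ε C : ℝ} (hΛ : 0 < Λ) (hC : C ≤ Real.exp (Λ * ε))
    (h : Real.exp (Λ * a) ≤ C * Real.exp (Λ * b)) : a ≤ b + ε := by
  have h1 : Real.exp (Λ * a) ≤ Real.exp (Λ * (b + ε)) := by
    calc Real.exp (Λ * a) ≤ C * Real.exp (Λ * b) := h
      _ ≤ Real.exp (Λ * ε) * Real.exp (Λ * b) := by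
        apply mul_le_mul_of_nonneg_right hC (Real.exp_pos _).le
      _ = Real.exp (Λ * (b + ε)) := by rw [← Real.exp_add]; ring_nf
  rw [Real.exp_le_exp] at h1
  exact le_of_mul_le_mul_left h1 hΛ

theorem core (h : Valid P c t0 p w τ) (hc : |c| = 1) (hA : 1 ≤ A) (ht0 : t0 = -(A+3))
    (hpk : p ≤ k) (hkn : k ≤ P.n) (hΛ : 0 < Λ)
    (hu : ∀ i j, i ≤ j → j < k → u j ≤ u i) (hu1 : ∀ j, j < k → -A ≤ u j)
    (hε1 : ε ≤ dl P.n P.ρ / 4) (hε2 : (A + 4) * k ≤ Real.exp (Λ * ε))
    (hε3 : k ≤ dl P.n P.ρ * Real.exp (Λ * ε)) (hu0 : |u 0 - c| ≤ ε)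
    (hmax : ∀ p' w' τ', p' ≤ k → Valid P c t0 p' w' τ' → En P k Λ u p' w' τ' ≤ En P k Λ u p w τ) :
    ∀ j, j < k → j < p ∧ |u j - w j| ≤ 2 * mu P.n P.ρ τ j := by
  have hρ0 := P.hρ0
  have hρ1 := P.rho_le_one
  have hρ16 := P.rho_le
  have hd0 : 0 < dl P.n P.ρ := dl_pos hρ0
  have hdρ : dl P.n P.ρ ≤ P.ρ := dl_le_rho hρ0 hρ1
  have hcc : -1 ≤ c ∧ c ≤ 1 := abs_le.mp hc.le
  have htc : t0 ≤ c := by rw [ht0]; linarith
  intro j
  induction j with
  | zero =>
    intro hj
    refine ⟨by have := h.1; omega, ?_⟩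
    rw [h.2.1]
    have : mu P.n P.ρ τ 0 = dl P.n P.ρ := by
      unfold mu; rw [h.2.2.1]; simp
    rw [this]
    linarith
  | succ j ih =>
    intro hjk
    obtain ⟨hjp, hj⟩ := ih (by omega)
    have hmuj : mu P.n P.ρ τ j ≤ P.ρ := mu_le_rho hρ0 hρ1
    have hj' := abs_le.mp hj
    have huj := hu1 j (by omega)
    have hwj : -A - 1 ≤ w j := by linarith
    have hmm0 : 0 < mm P.n P.ρ τ (j+1) := mm_pos hρ0 _
    have hmmρ : mm P.n P.ρ τ (j+1) ≤ P.ρ := mm_le_rho hρ0 hρ1
    have hdmm : dl P.n P.ρ ≤ P.ρ * mm P.n P.ρ τ (j+1) := dl_le_mm hρ0 hρ1 (by omega)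
    have hε3' : (k:ℝ) / dl P.n P.ρ ≤ Real.exp (Λ * ε) := by
      rw [div_le_iff₀ hd0]; linarith
    have hsub : j + 1 - 1 = j := by omega
    -- Step 1
    have hip : j + 1 < p := by
      by_contra hcon
      have hpe : p = j + 1 := by omega
      have hwi : w (j+1) = t0 := (h.2.2.2.1 (j+1) (by omega)).1
      obtain ⟨t, b, h1, h2, h3, -, -⟩ := netOk h (by omega) hc (j := j+1) (by omega) (by omega)
        (by omega) (y := t0 + 1) (by rw [hsub, ht0]; linarith) (by linarith)
      have h4 := claimB h htc hpk hkn hΛ.le hmax (i := j+1) (by omega) (by omega) hjk h2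
        (by rw [hwi]; linarith)
      rw [hwi] at h4
      have h5 : Real.exp (Λ * u (j+1)) ≤
          k / dl P.n P.ρ * Real.exp (Λ * (t - (if b then mm P.n P.ρ τ (j+1) else dl P.n P.ρ))) := by
        have h6 := Real.exp_pos (Λ * u (j+1))
        have h7 : Real.exp (Λ * u (j+1)) ≤ (t - t0) * Real.exp (Λ * u (j+1)) := by nlinarith
        have h8 : (k:ℝ) ≤ k / dl P.n P.ρ := by
          rw [le_div_iff₀ hd0]
          have : (0:ℝ) ≤ k := Nat.cast_nonneg k
          nlinarith
        have h9 := Real.exp_pos (Λ * (t - (if b then mm P.n P.ρ τ (j+1) else dl P.n P.ρ)))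
        calc Real.exp (Λ * u (j+1)) ≤ (t - t0) * Real.exp (Λ * u (j+1)) := h7
          _ ≤ _ := h4
          _ ≤ _ := mul_le_mul_of_nonneg_right h8 h9.le
      have h6 := exp_mul_le_imp hΛ hε3' h5
      have h7 := hu1 (j+1) hjk
      linarith
    refine ⟨hip, ?_⟩
    have hok := h.2.2.2.2 (j+1) (by omega) hip
    have hdmu : dl P.n P.ρ ≤ mu P.n P.ρ τ (j+1) := dl_le_mu hρ0 hρ1 (by omega)
    rw [abs_le]
    constructor
    · -- Step 2
      have h1 := claimA h hpk hmax (i := j+1) (by omega) hip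
      have h2 : ∑ l ∈ Ico (j+1) k, (w l - t0) * Real.exp (Λ * u l) ≤
          ((A + 4) * k) * Real.exp (Λ * u (j+1)) := by
        calc ∑ l ∈ Ico (j+1) k, (w l - t0) * Real.exp (Λ * u l)
            ≤ ∑ l ∈ Ico (j+1) k, (A + 4) * Real.exp (Λ * u (j+1)) := by
              apply sum_le_sum
              intro l hl
              have hl' := mem_Ico.mp hl
              have h3 := h.le htc l
              have h4 := h.ge htc l
              have h5 : Real.exp (Λ * u l) ≤ Real.exp (Λ * u (j+1)) :=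
                Real.exp_le_exp.mpr (mul_le_mul_of_nonneg_left (hu _ _ hl'.1 hl'.2) hΛ.le)
              have h6 : w l - t0 ≤ A + 4 := by rw [ht0]; linarith
              exact mul_le_mul h6 h5 (Real.exp_pos _).le (by linarith)
          _ = (k - (j+1) : ℕ) * ((A + 4) * Real.exp (Λ * u (j+1))) := by
              rw [sum_const, Nat.card_Ico, nsmul_eq_mul]
          _ ≤ k * ((A + 4) * Real.exp (Λ * u (j+1))) := by
              apply mul_le_mul_of_nonneg_right
              · exact_mod_cast Nat.sub_le k (j+1)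
              · have := Real.exp_pos (Λ * u (j+1))
                have : 0 < A + 4 := by linarith
                positivity
          _ = ((A + 4) * k) * Real.exp (Λ * u (j+1)) := by ring
      have h3 := exp_mul_le_imp hΛ hε2 (h1.trans h2)
      linarith
    · -- Step 3
      rcases eq_or_lt_of_le hok.2.1 with heq | hlt
      · have hτ : τ (j+1) = true := by
          by_contra hτ
          have hτ' : τ (j+1) = false := by simpa using hτ
          have h1 := (hok.2.2.2 hτ').2 (tie (j+1)) (P.htie (j+1) (by omega) (by omega)) (tie_level _)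
          rw [lam_tie (by omega), heq, sub_self, abs_zero] at h1
          linarith
        have h1 : mu P.n P.ρ τ (j+1) = mm P.n P.ρ τ (j+1) := by unfold mu; simp [hτ]
        have h2 : mu P.n P.ρ τ j ≤ P.ρ * mm P.n P.ρ τ (j+1) := mu_le_mm hρ0 hρ1 (by omega) (by omega)
        have h3 := hu j (j+1) (by omega) hjk
        rw [hsub] at heq
        rw [h1, heq]
        nlinarith
      · have hdneg : 0 < dl P.n P.ρ := hd0
        obtain ⟨t, b, h1, h2, h3, h4, h5⟩ := netOk h (by omega) hc (j := j+1) (by omega) (by omega)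
          (by omega) (y := w (j+1)) hlt hok.1.le
        have h6 := claimB h htc hpk hkn hΛ.le hmax (i := j+1) (by omega) (by omega) hjk h2 h1.le
        -- gap
        have hfin : ∀ r : ℝ, w (j+1) + dl P.n P.ρ ≤ t →
            t - (if b then mm P.n P.ρ τ (j+1) else dl P.n P.ρ) ≤ r → u (j+1) ≤ r + ε := by
          intro r hg hr
          have h7 := Real.exp_pos (Λ * u (j+1))
          have h8 : dl P.n P.ρ * Real.exp (Λ * u (j+1)) ≤
              k * Real.exp (Λ * (t - (if b then mm P.n P.ρ τ (j+1) else dl P.n P.ρ))) := by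
            refine le_trans ?_ h6
            apply mul_le_mul_of_nonneg_right _ h7.le
            linarith
          have h9 : Real.exp (Λ * u (j+1)) ≤ k / dl P.n P.ρ * Real.exp (Λ * r) := by
            rw [div_mul_eq_mul_div, le_div_iff₀ hd0, mul_comm]
            refine h8.trans ?_
            apply mul_le_mul_of_nonneg_left _ (Nat.cast_nonneg k)
            exact Real.exp_le_exp.mpr (mul_le_mul_of_nonneg_left hr hΛ.le)
          exact exp_mul_le_imp hΛ hε3' h9
        rcases hτ : τ (j+1) with _ | _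
        · obtain ⟨hz, hv⟩ := hok.2.2.2 hτ
          obtain ⟨hg, hr⟩ := h4 hz hv
          have h7 := hfin _ hg hr
          have h8 : mu P.n P.ρ τ (j+1) = dl P.n P.ρ := by unfold mu; simp [hτ]
          rw [h8]
          linarith
        · have hg := h5 (hok.2.2.1 hτ)
          have h7 := hfin _ hg h3
          have h8 : mu P.n P.ρ τ (j+1) = mm P.n P.ρ τ (j+1) := by unfold mu; simp [hτ]
          rw [h8]
          nlinarith

end

end Crest.Agent.S0122H
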