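import Mathlib
import Crest.Prelude.Def_MassAction

set_option autoImplicit false

namespace Crest.Agent.S0122H

open Finset Crest.AnalysisR.MassAction

lemma gap_exists (S : Finset ℝ) {a b : ℝ} (hab : a < b) :
    ∃ α β : ℝ, α < β ∧ a ≤ α ∧ β ≤ b ∧ (b - a) / 2 ^ S.card ≤ β - α ∧ ∀ s ∈ S, ¬ (α < s ∧ s < β) := by
  classical
  induction S using Finset.induction_on with
  | empty => exact ⟨a, b, hab, le_rfl, le_rfl, by simp, by simp⟩
  | insert s S hs ih =>
    obtain ⟨α, β, h1, h2, h3, h4, h5⟩ := ih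
    rw [card_insert_of_notMem hs, pow_succ]
    have h6 : (b - a) / (2 ^ S.card * 2) = (b - a) / 2 ^ S.card / 2 := by
      rw [div_div]
    rw [h6]
    by_cases hin : α < s ∧ s < β
    · rcases le_total (s - α) (β - s) with h | h
      · refine ⟨s, β, hin.2, by linarith [hin.1], h3, by linarith, ?_⟩
        intro t ht
        rcases mem_insert.mp ht with rfl | ht
        · intro h7; exact lt_irrefl _ h7.1
        · intro h7; exact h5 t ht ⟨by linarith [h7.1, hin.1], h7.2⟩
      · refine ⟨α, s, hin.1, h2, by linarith [hin.2], by linarith, ?_⟩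
        intro t ht
        rcases mem_insert.mp ht with rfl | ht
        · intro h7; exact lt_irrefl _ h7.2
        · intro h7; exact h5 t ht ⟨h7.1, by linarith [h7.2, hin.2]⟩
    · refine ⟨α, β, h1, h2, h3, ?_, ?_⟩
      · have : 0 ≤ (b - a) / 2 ^ S.card := by
          apply div_nonneg (by linarith); positivity
        linarith
      · intro t ht
        rcases mem_insert.mp ht with rfl | ht
        · exact hin
        · exact h5 t ht

lemma crossing {α : Type*} (Rel : α → α → Prop) (φ : α → ℝ) (C : α → Prop)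
    (hC : ∀ a b, Rel a b → C b) {lo hi : ℝ} (hlohi : lo < hi)
    (hgap : ∀ a, C a → ¬ (lo < φ a ∧ φ a < hi)) {x y : α}
    (hpath : Relation.ReflTransGen Rel x y) (hx : hi ≤ φ x) (hy : φ y ≤ lo) :
    ∃ z z', Rel z z' ∧ hi ≤ φ z ∧ φ z' ≤ lo := by
  induction hpath using Relation.ReflTransGen.head_induction_on with
  | refl => linarith
  | head hab hbc ih =>
    rename_i a c
    by_cases h : hi ≤ φ c
    · exact ih h
    · refine ⟨a, c, hab, hx, ?_⟩
      push Not at h
      by_contra hcon
      push Not at hcon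
      exact hgap c (hC a c hab) ⟨hcon, h⟩

variable {d : ℕ}

noncomputable def mono (x : Fin d → ℝ) (y : Fin d → ℕ) : ℝ := ∏ i, x i ^ (y i)

noncomputable def phi (N : Fin d → ℝ) (y : Fin d → ℕ) : ℝ := ∑ j, N j * (y j : ℝ)

lemma sum_field (R : Network d) (k : (Fin d → ℕ) × (Fin d → ℕ) → ℝ) (x N : Fin d → ℝ) :
    ∑ j, N j * field R k x j = ∑ r ∈ R, (k r * mono x r.1) * (phi N r.2 - phi N r.1) := by
  unfold field phi mono
  simp only [Finset.sum_apply, Pi.smul_apply, smul_eq_mul, reactionVector]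
  simp_rw [mul_sum]
  rw [sum_comm]
  apply sum_congr rfl
  intro r _
  rw [← sum_sub_distrib, mul_sum]
  apply sum_congr rfl
  intro j _
  ring

lemma mono_pos {x : Fin d → ℝ} (hx : ∀ i, 0 < x i) (y : Fin d → ℕ) : 0 < mono x y :=
  prod_pos (fun i _ => pow_pos (hx i) _)

lemma log_mono {x : Fin d → ℝ} (hx : ∀ i, 0 < x i) (y : Fin d → ℕ) :
    Real.log (mono x y) = ∑ j, (y j : ℝ) * Real.log (x j) := by
  unfold mono
  rw [Real.log_prod (fun i _ => (pow_pos (hx i) _).ne')]
  apply sum_congr rfl
  intro j _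
  rw [Real.log_pow]

theorem network_neg (R : Network d) (hR : IsWeaklyReversible R)
    (k : (Fin d → ℕ) × (Fin d → ℕ) → ℝ) (hk : ∀ r ∈ R, 0 < k r) :
    ∃ (m : ℕ) (M : ℝ), ∀ x : Fin d → ℝ, (∀ i, 0 < x i) → ∀ N : Fin d → ℝ,
      (∀ ξ : Fin d → ℤ, (∀ j, |ξ j| ≤ m) → 0 < ∑ j, N j * (ξ j : ℝ) →
        M ≤ ∑ j, ξ j * Real.log (x j)) →
      (∀ r ∈ R, phi N r.2 - phi N r.1 = 0) ∨ ∑ j, N j * field R k x j < 0 := by
  classical
  -- complexes
  set C : Finset (Fin d → ℕ) := R.image Prod.fst ∪ R.image Prod.snd with hC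
  set m : ℕ := C.sup (fun y => univ.sup y) with hm
  have hmb : ∀ y ∈ C, ∀ j, y j ≤ m := by
    intro y hy j
    exact (le_sup (f := y) (mem_univ j)).trans (le_sup (f := fun y : Fin d → ℕ => univ.sup y) hy)
  have h1C : ∀ r ∈ R, r.1 ∈ C := fun r hr => mem_union_left _ (mem_image_of_mem _ hr)
  have h2C : ∀ r ∈ R, r.2 ∈ C := fun r hr => mem_union_right _ (mem_image_of_mem _ hr)
  -- bounds on k
  obtain ⟨κ, hκ0, hκ⟩ : ∃ κ : ℝ, 0 < κ ∧ ∀ r ∈ R, κ ≤ k r := by
    clear hC hm hmb h1C h2C hR
    induction R using Finset.induction_on with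
    | empty => exact ⟨1, one_pos, by simp⟩
    | insert r R _ ih =>
      obtain ⟨κ, h1, h2⟩ := ih (fun r hr => hk r (mem_insert_of_mem hr))
      refine ⟨min κ (k r), lt_min h1 (hk r (mem_insert_self _ _)), ?_⟩
      intro s hs
      rcases mem_insert.mp hs with rfl | hs
      · exact min_le_right _ _
      · exact (min_le_left _ _).trans (h2 s hs)
  set K : ℝ := ∑ r ∈ R, k r with hK
  have hKr : ∀ r ∈ R, k r ≤ K := fun r hr => single_le_sum (fun s hs => (hk s hs).le) hr
  have hK0 : 0 ≤ K := sum_nonneg (fun s hs => (hk s hs).le)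
  set L : ℝ := 2 * (K + 1) * 2 ^ C.card * (R.card + 1) / κ with hL
  have hL0 : 0 < L := by positivity
  refine ⟨m, Real.log L, ?_⟩
  intro x hx N hN
  -- monomial comparison
  have hcmp : ∀ z ∈ C, ∀ y ∈ C, phi N y < phi N z → L * mono x y ≤ mono x z := by
    intro z hz y hy hlt
    have h1 := hN (fun j => (z j : ℤ) - y j) (fun j => by
      have h2 := hmb z hz j
      have h3 := hmb y hy j
      rw [abs_le]; constructor <;> omega) (by
      unfold phi at hlt
      have : ∑ j, N j * (((z j : ℤ) - (y j : ℤ) : ℤ) : ℝ) =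
        ∑ j, N j * (z j : ℝ) - ∑ j, N j * (y j : ℝ) := by
        rw [← sum_sub_distrib]
        apply sum_congr rfl
        intro j _
        push_cast; ring
      rw [this]; linarith)
    have h2 : ∑ j, (((z j : ℤ) - (y j : ℤ) : ℤ) : ℝ) * Real.log (x j) =
        Real.log (mono x z) - Real.log (mono x y) := by
      rw [log_mono hx, log_mono hx, ← sum_sub_distrib]
      apply sum_congr rfl
      intro j _
      push_cast; ring
    rw [h2] at h1
    have h3 : Real.log (L * mono x y) ≤ Real.log (mono x z) := by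
      rw [Real.log_mul hL0.ne' (mono_pos hx y).ne']
      linarith
    exact (Real.log_le_log_iff (mul_pos hL0 (mono_pos hx y)) (mono_pos hx z)).mp h3
  -- each up reaction is dominated by a down reaction
  have hdom : ∀ r ∈ R, phi N r.1 < phi N r.2 → ∃ s ∈ R, phi N s.2 < phi N s.1 ∧
      (k r * mono x r.1) * (phi N r.2 - phi N r.1) * (2 * (R.card + 1)) ≤
        (k s * mono x s.1) * (phi N s.1 - phi N s.2) := by
    intro r hr hup
    obtain ⟨lo, hi, h1, h2, h3, h4, h5⟩ := gap_exists (C.image (phi N)) hup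
    obtain ⟨z, z', hzz, h6, h7⟩ := crossing (fun a b => (a, b) ∈ R) (phi N) (fun a => a ∈ C)
      (fun a b hab => h2C (a, b) hab) h1 (fun a ha => h5 _ (mem_image_of_mem _ ha)) (hR r hr) h3 h2
    refine ⟨(z, z'), hzz, ?_, ?_⟩
    · show phi N z' < phi N z
      linarith
    · simp only
      have h8 : L * mono x r.1 ≤ mono x z := hcmp z (h1C _ hzz) r.1 (h1C r hr) (by linarith)
      have h9 : (phi N r.2 - phi N r.1) ≤ 2 ^ C.card * (phi N z - phi N z') := by
        have h10 : (phi N r.2 - phi N r.1) / 2 ^ (C.image (phi N)).card ≤ phi N z - phi N z' := by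
          linarith
        rw [div_le_iff₀ (by positivity)] at h10
        have h11 : (2:ℝ) ^ (C.image (phi N)).card ≤ 2 ^ C.card :=
          pow_le_pow_right₀ (by norm_num) card_image_le
        have h12 : 0 ≤ phi N z - phi N z' := by linarith
        nlinarith
      have h10 : κ ≤ k (z, z') := hκ _ hzz
      have h11 := hKr r hr
      have h12 := mono_pos hx r.1
      have h13 : 0 < phi N z - phi N z' := by linarith
      have h14 : 0 < k r := hk r hr
      have h15 : 0 < k (z, z') := hk _ hzz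
      have hLκ : L * κ = 2 * (K + 1) * 2 ^ C.card * (R.card + 1) := by
        rw [hL, div_mul_cancel₀ _ hκ0.ne']
      calc (k r * mono x r.1) * (phi N r.2 - phi N r.1) * (2 * (R.card + 1))
          ≤ (k r * mono x r.1) * (2 ^ C.card * (phi N z - phi N z')) * (2 * (R.card + 1)) := by
            gcongr
        _ ≤ ((K + 1) * mono x r.1) * (2 ^ C.card * (phi N z - phi N z')) * (2 * (R.card + 1)) := by
            gcongr; linarith
        _ = (L * κ) * mono x r.1 * (phi N z - phi N z') := by rw [hLκ]; ring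
        _ = κ * (L * mono x r.1) * (phi N z - phi N z') := by ring
        _ ≤ k (z, z') * mono x z * (phi N z - phi N z') := by gcongr
  by_cases hdown : ∃ s ∈ R, phi N s.2 < phi N s.1
  · right
    rw [sum_field]
    -- total down amount
    set F : (Fin d → ℕ) × (Fin d → ℕ) → ℝ := fun r => (k r * mono x r.1) * (phi N r.2 - phi N r.1) with hF
    set Dn : Finset ((Fin d → ℕ) × (Fin d → ℕ)) := R.filter (fun s => phi N s.2 < phi N s.1) with hDn
    set T : ℝ := ∑ s ∈ Dn, (- F s) with hT
    have hFneg : ∀ s ∈ Dn, 0 < - F s := by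
      intro s hs
      rw [hDn, mem_filter] at hs
      have h1 := mul_pos (hk s hs.1) (mono_pos hx s.1)
      simp only [hF]
      nlinarith [hs.2]
    have hTpos : 0 < T := by
      obtain ⟨s, hs, hs2⟩ := hdown
      exact sum_pos hFneg ⟨s, mem_filter.mpr ⟨hs, hs2⟩⟩
    have hsT : ∀ s ∈ Dn, - F s ≤ T := fun s hs =>
      single_le_sum (f := fun s => - F s) (fun t ht => (hFneg t ht).le) hs
    have hsplit : ∑ r ∈ R, F r = ∑ r ∈ R.filter (fun s => ¬ phi N s.2 < phi N s.1), F r - T := by
      rw [← sum_filter_add_sum_filter_not R (fun s => phi N s.2 < phi N s.1), hT, sum_neg_distrib]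
      ring
    rw [hsplit]
    have hup : ∀ r ∈ R.filter (fun s => ¬ phi N s.2 < phi N s.1), F r ≤ T / (2 * (R.card + 1)) := by
      intro r hr
      rw [mem_filter] at hr
      rcases eq_or_lt_of_le (not_lt.mp hr.2) with h1 | h1
      · have : F r = 0 := by simp only [hF]; rw [h1]; ring
        rw [this]; positivity
      · obtain ⟨s, hs, hs2, hs3⟩ := hdom r hr.1 h1
        rw [le_div_iff₀ (by positivity)]
        have h2 := hsT s (mem_filter.mpr ⟨hs, hs2⟩)
        have h3 : - F s = (k s * mono x s.1) * (phi N s.1 - phi N s.2) := by simp only [hF]; ring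
        rw [h3] at h2
        exact hs3.trans h2
    have hsum := sum_le_card_nsmul _ _ _ hup
    rw [nsmul_eq_mul] at hsum
    have hcard : ((R.filter (fun s => ¬ phi N s.2 < phi N s.1)).card : ℝ) ≤ R.card := by
      exact_mod_cast card_filter_le _ _
    have h1 : ((R.filter (fun s => ¬ phi N s.2 < phi N s.1)).card : ℝ) * (T / (2 * (R.card + 1))) ≤ T / 2 := by
      have h2 : (0:ℝ) ≤ R.card := Nat.cast_nonneg _
      calc ((R.filter (fun s => ¬ phi N s.2 < phi N s.1)).card : ℝ) * (T / (2 * (R.card + 1)))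
          ≤ (R.card + 1) * (T / (2 * (R.card + 1))) := by
            apply mul_le_mul_of_nonneg_right (by linarith) (by positivity)
        _ = T / 2 := by field_simp
    linarith
  · left
    push Not at hdown
    intro r hr
    have h1 := hdown r hr
    rcases eq_or_lt_of_le h1 with h2 | h2
    · linarith
    · obtain ⟨s, hs, hs2, -⟩ := hdom r hr h2
      exact absurd hs2 (not_lt.mpr (hdown s hs))

end Crest.Agent.S0122H
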