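import Crest.Agent.S0122H.Closure

set_option autoImplicit false

namespace Crest.Agent.S0122H

open Finset

/-- exponents attached to a pattern of special/generic flags -/
def base (n : ℕ) (τ : ℕ → Bool) : ℕ → ℕ
  | 0 => 0
  | (j+1) => base n τ j + (if τ j then 0 else 2^(n-j))

def ee (n : ℕ) (τ : ℕ → Bool) (j : ℕ) : ℕ := base n τ j + 2^(n-j)

lemma base_congr (n : ℕ) {τ τ' : ℕ → Bool} {j : ℕ} (h : ∀ i, i < j → τ i = τ' i) :
    base n τ j = base n τ' j := by
  induction j with
  | zero => rfl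
  | succ j ih =>
    simp only [base]
    rw [ih (fun i hi => h i (by omega)), h j (by omega)]

lemma ee_congr (n : ℕ) {τ τ' : ℕ → Bool} {j : ℕ} (h : ∀ i, i < j → τ i = τ' i) :
    ee n τ j = ee n τ' j := by
  simp only [ee]
  rw [base_congr n h]

lemma two_pow_step {n j : ℕ} (h : j + 1 ≤ n) : 2^(n-j) = 2 * 2^(n-(j+1)) := by
  have : n - j = (n - (j+1)) + 1 := by omega
  rw [this, pow_succ]; ring

lemma base_nested (n : ℕ) (τ : ℕ → Bool) (l j : ℕ) (hlj : l ≤ j) (hjn : j ≤ n) :
    base n τ l ≤ base n τ j ∧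
      base n τ j + 2*2^(n-j) ≤ base n τ l + 2 * 2^(n-l) := by
  induction j, hlj using Nat.le_induction with
  | base => exact ⟨le_rfl, le_rfl⟩
  | succ j hj ih =>
    obtain ⟨h1, h2⟩ := ih (by omega)
    have h3 := two_pow_step hjn
    simp only [base]
    rcases τ j with _ | _
    · simp only [Bool.false_eq_true, if_false]
      omega
    · simp only [if_true]
      omega

lemma ee_special (n : ℕ) (τ : ℕ → Bool) {l j : ℕ} (hlj : l < j) (hjn : j ≤ n)
    (h : τ l = true) : ee n τ j + 1 ≤ ee n τ l := by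
  have h1 := base_nested n τ (l+1) j hlj hjn
  have h2 : base n τ (l+1) = base n τ l := by simp [base, h]
  have h3 := two_pow_step (n := n) (j := l) (by omega)
  have h4 : 1 ≤ 2^(n-j) := Nat.one_le_two_pow
  simp only [ee]
  omega

lemma ee_generic (n : ℕ) (τ : ℕ → Bool) {l j : ℕ} (hlj : l < j) (hjn : j ≤ n)
    (h : τ l = false) : ee n τ l + 1 ≤ ee n τ j := by
  have h1 := base_nested n τ (l+1) j hlj hjn
  have h2 : base n τ (l+1) = base n τ l + 2^(n-l) := by simp [base, h]
  have h4 : 1 ≤ 2^(n-j) := Nat.one_le_two_pow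
  simp only [ee]
  omega

lemma ee_lt (n : ℕ) (τ : ℕ → Bool) {j : ℕ} (hjn : j ≤ n) : ee n τ j + 1 ≤ 2^(n+1) := by
  have h1 := base_nested n τ 0 j (by omega) hjn
  have h2 : base n τ 0 = 0 := rfl
  have h4 : 1 ≤ 2^(n-j) := Nat.one_le_two_pow
  have h5 : 2^(n+1) = 2 * 2^(n-0) := by rw [pow_succ]; simp; ring
  simp only [ee]
  omega

lemma ee_pos (n : ℕ) (τ : ℕ → Bool) (j : ℕ) : 1 ≤ ee n τ j := by
  have h4 : 1 ≤ 2^(n-j) := Nat.one_le_two_pow
  simp only [ee]
  omega

noncomputable def mm (n : ℕ) (ρ : ℝ) (τ : ℕ → Bool) (j : ℕ) : ℝ := ρ^(ee n τ j)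
noncomputable def dl (n : ℕ) (ρ : ℝ) : ℝ := ρ^(2^(n+1))
noncomputable def mu (n : ℕ) (ρ : ℝ) (τ : ℕ → Bool) (j : ℕ) : ℝ :=
  if τ j then mm n ρ τ j else dl n ρ

section
variable {n : ℕ} {ρ : ℝ} {τ : ℕ → Bool} (h0 : 0 < ρ) (h1 : ρ ≤ 1)
include h0 

lemma mm_pos (j : ℕ) : 0 < mm n ρ τ j := pow_pos h0 _
lemma dl_pos : 0 < dl n ρ := pow_pos h0 _

lemma mu_pos (j : ℕ) : 0 < mu n ρ τ j := by
  unfold mu; split_ifs
  · exact mm_pos h0 j
  · exact dl_pos h0

include h1

lemma mm_special {l j : ℕ} (hlj : l < j) (hjn : j ≤ n) (h : τ l = true) :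
    mm n ρ τ l ≤ ρ * mm n ρ τ j := by
  unfold mm
  calc ρ ^ ee n τ l ≤ ρ ^ (ee n τ j + 1) :=
        pow_le_pow_of_le_one h0.le h1 (ee_special n τ hlj hjn h)
    _ = ρ * ρ ^ ee n τ j := by rw [pow_succ]; ring

lemma mm_generic {l j : ℕ} (hlj : l < j) (hjn : j ≤ n) (h : τ l = false) :
    mm n ρ τ j ≤ ρ * mm n ρ τ l := by
  unfold mm
  calc ρ ^ ee n τ j ≤ ρ ^ (ee n τ l + 1) :=
        pow_le_pow_of_le_one h0.le h1 (ee_generic n τ hlj hjn h)
    _ = ρ * ρ ^ ee n τ l := by rw [pow_succ]; ring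

lemma dl_le_mm {j : ℕ} (hjn : j ≤ n) : dl n ρ ≤ ρ * mm n ρ τ j := by
  unfold mm dl
  calc ρ ^ (2^(n+1)) ≤ ρ ^ (ee n τ j + 1) :=
        pow_le_pow_of_le_one h0.le h1 (ee_lt n τ hjn)
    _ = ρ * ρ ^ ee n τ j := by rw [pow_succ]; ring

lemma mm_le_rho {j : ℕ} : mm n ρ τ j ≤ ρ := by
  unfold mm
  calc ρ ^ ee n τ j ≤ ρ ^ 1 :=
        pow_le_pow_of_le_one h0.le h1 (ee_pos n τ j)
    _ = ρ := by simp

lemma mu_le_mm {l j : ℕ} (hlj : l < j) (hjn : j ≤ n) : mu n ρ τ l ≤ ρ * mm n ρ τ j := by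
  unfold mu
  rcases h : τ l with _ | _
  · simp only [Bool.false_eq_true, if_false]
    exact dl_le_mm h0 h1 hjn
  · simp only [if_true]
    exact mm_special h0 h1 hlj hjn h

lemma dl_le_mu {j : ℕ} (hjn : j ≤ n) : dl n ρ ≤ mu n ρ τ j := by
  unfold mu
  split_ifs
  · have := dl_le_mm (τ := τ) h0 h1 hjn
    have h3 := mm_pos (n := n) (τ := τ) h0 j
    nlinarith
  · exact le_rfl

lemma mu_le_mm_self {j : ℕ} (hjn : j ≤ n) : mu n ρ τ j ≤ mm n ρ τ j := by
  unfold mu
  split_ifs
  · exact le_rfl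
  · have := dl_le_mm (τ := τ) h0 h1 hjn
    have h3 := mm_pos (n := n) (τ := τ) h0 j
    nlinarith

lemma dl_le_rho : dl n ρ ≤ ρ := by
  unfold dl
  calc ρ ^ (2^(n+1)) ≤ ρ ^ 1 :=
        pow_le_pow_of_le_one h0.le h1 Nat.one_le_two_pow
    _ = ρ := by simp

lemma mu_le_rho {j : ℕ} : mu n ρ τ j ≤ ρ := by
  unfold mu
  split_ifs
  · exact mm_le_rho h0 h1
  · exact dl_le_rho h0 h1

end

/-- real line lemma: the net is fine enough above `y`. -/
lemma net {S : Set ℝ} {q y m δ : ℝ} (hq : q ∈ S) (hyq : y < q) (hδ : 0 < δ) (hm : 4 * δ ≤ m)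
    (hsep : ∀ s ∈ S, ∀ s' ∈ S, s ≠ s' → 4 * m ≤ |s - s'|) :
    ∃ t, y < t ∧ t ≤ q ∧
      ((t ∈ S ∧ t - m ≤ y + δ) ∨
        ((∃ z : ℤ, t = δ * z) ∧ (∀ s ∈ S, m ≤ |t - s|) ∧
          (t - δ ≤ y ∨ (t - δ ≤ y + m ∧ ∃ s ∈ S, |y - s| < m)))) ∧
      (y ∈ S → y + δ ≤ t) ∧ (((∃ z : ℤ, y = δ * z) ∧ ∀ s ∈ S, m ≤ |y - s|) → y + δ ≤ t) := by
  have hm0 : 0 < m := by linarith
  set g : ℝ := δ * (⌊y / δ⌋ + 1 : ℤ) with hg
  have hg1 : y < g := by
    have := Int.lt_floor_add_one (y / δ)
    rw [hg]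
    push_cast
    rw [div_lt_iff₀ hδ] at this
    linarith
  have hg2 : g ≤ y + δ := by
    have := Int.floor_le (y / δ)
    rw [le_div_iff₀ hδ] at this
    rw [hg]
    push_cast
    linarith
  have hgz : (∃ z : ℤ, y = δ * z) → g = y + δ := by
    rintro ⟨z, hz⟩
    rw [hg, hz, mul_div_cancel_left₀ _ hδ.ne', Int.floor_intCast]
    push_cast; ring
  rcases lt_or_ge q g with hc | hc
  · -- case 2
    refine ⟨q, hyq, le_rfl, Or.inl ⟨hq, by linarith⟩, ?_, ?_⟩
    · intro hy
      have := hsep q hq y hy hyq.ne'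
      rw [abs_of_pos (by linarith)] at this
      linarith
    · rintro ⟨-, hy⟩
      have := hy q hq
      rw [abs_of_neg (by linarith)] at this
      linarith
  · by_cases hfar : ∀ s ∈ S, m ≤ |g - s|
    · refine ⟨g, hg1, hc, Or.inr ⟨⟨_, hg⟩, hfar, Or.inl (by linarith)⟩, ?_, ?_⟩
      · intro hy
        have := hfar y hy
        rw [abs_of_pos (by linarith)] at this
        linarith
      · rintro ⟨hz, -⟩
        rw [hgz hz]
    · push Not at hfar
      obtain ⟨s, hs, hgs⟩ := hfar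
      rw [abs_lt] at hgs
      rcases lt_or_ge y s with hys | hys
      · -- 3a
        have hsq : s ≤ q := by
          by_contra hcon
          push Not at hcon
          have := hsep s hs q hq hcon.ne'
          rw [abs_of_pos (by linarith)] at this
          linarith
        refine ⟨s, hys, hsq, Or.inl ⟨hs, by linarith⟩, ?_, ?_⟩
        · intro hy
          have := hsep s hs y hy hys.ne'
          rw [abs_of_pos (by linarith)] at this
          linarith
        · rintro ⟨-, hy⟩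
          have := hy s hs
          rw [abs_of_neg (by linarith)] at this
          linarith
      · -- 3b
        set g' : ℝ := δ * (⌈(s + m) / δ⌉ : ℤ) with hg'
        have h1 : s + m ≤ g' := by
          have := Int.le_ceil ((s + m) / δ)
          rw [div_le_iff₀ hδ] at this
          rw [hg']; linarith
        have h2 : g' < s + m + δ := by
          have := Int.ceil_lt_add_one ((s + m) / δ)
          rw [hg']
          have h3 : ((⌈(s + m) / δ⌉ : ℤ) : ℝ) - 1 < (s + m) / δ := by linarith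
          rw [lt_div_iff₀ hδ] at h3
          linarith
        have hsq : q - s ≥ 4 * m := by
          have hne : q ≠ s := by intro h; linarith
          have := hsep q hq s hs hne
          rw [abs_of_pos (by linarith)] at this
          linarith
        refine ⟨g', by linarith, by linarith, Or.inr ⟨⟨_, hg'⟩, ?_, Or.inr ⟨by linarith, s, hs, ?_⟩⟩, ?_, ?_⟩
        · intro s' hs'
          by_cases hss : s' = s
          · subst hss
            rw [abs_of_nonneg (by linarith)]
            linarith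
          · have h3 := hsep s' hs' s hs hss
            rcases le_total s' s with h4 | h4
            · rw [abs_of_nonpos (by linarith)] at h3
              rw [abs_of_nonneg (by linarith)]
              linarith
            · rw [abs_of_nonneg (by linarith)] at h3
              rw [abs_of_nonpos (by linarith)]
              linarith
        · rw [abs_lt]; constructor <;> linarith
        · intro hy
          have : y = s := by
            by_contra hne
            have := hsep y hy s hs hne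
            rw [abs_of_nonneg (by linarith)] at this
            linarith
          linarith
        · rintro ⟨-, hy⟩
          have := hy s hs
          rw [abs_of_nonneg (by linarith)] at this
          linarith

end Crest.Agent.S0122H
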