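import Crest.Agent.S0122H.Main1

set_option autoImplicit false

namespace Crest.Agent.S0122H

open Finset

section
variable {P : Par} {c t0 Λ A ε : ℝ} {p k : ℕ} {w u : ℕ → ℝ} {τ : ℕ → Bool}

theorem core_sign (h : Valid P c t0 p w τ) (hc : |c| = 1)
    (hpk : p ≤ k) (hkn : k ≤ P.n)
    (hcore : ∀ j, j < k → j < p ∧ |u j - w j| ≤ 2 * mu P.n P.ρ τ j)
    {v : ℕ → ℝ} (hv : v ∈ P.V) {i : ℕ} (hvi : HasLevel v i) (hik : i < k) {a : ℝ} (ha : 1 ≤ |a|)
    (hB : ∑ j ∈ range k, |a * v j| ≤ P.B) (hne : ∑ j ∈ range k, (a * v j) * w j ≠ 0) :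
    |∑ j ∈ range k, (a * v j) * u j - ∑ j ∈ range k, (a * v j) * w j| ≤
      |∑ j ∈ range k, (a * v j) * w j| / 2 ∧
    2 * dl P.n P.ρ ≤ |∑ j ∈ range k, (a * v j) * w j| := by
  have hρ0 := P.hρ0
  have hρ1 := P.rho_le_one
  have hρ16 := P.rho_le
  have hd0 : 0 < dl P.n P.ρ := dl_pos hρ0
  have hdρ : dl P.n P.ρ ≤ P.ρ := dl_le_rho hρ0 hρ1
  have hB1 := P.hB
  have hBρ : 16 * P.B * P.ρ ≤ 1 := P.hρ1.trans (pow_le_one₀ P.hθ0.le P.hθ1)
  have hev : ∑ j ∈ range k, (a * v j) * w j = a * ev P.n v w := by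
    unfold ev
    rw [mul_sum]
    have h1 : ∑ j ∈ range P.n, a * (v j * w j) = ∑ j ∈ range k, a * (v j * w j) := by
      symm
      apply Finset.sum_subset
      · intro j hj
        simp only [mem_range] at *
        omega
      · intro j _ hj
        simp only [mem_range, not_lt] at hj
        rw [hvi.2 j (by omega), zero_mul, mul_zero]
    rw [h1]
    apply sum_congr rfl
    intro j _; ring
  have hevne : ev P.n v w ≠ 0 := by
    intro h0
    apply hne
    rw [hev, h0, mul_zero]
  have hdiff : ∑ j ∈ range k, (a * v j) * u j - ∑ j ∈ range k, (a * v j) * w j =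
      ∑ j ∈ range k, (a * v j) * (u j - w j) := by
    rw [← sum_sub_distrib]
    apply sum_congr rfl
    intro j _; ring
  -- error bound given a uniform bound on the mu's
  have herr : ∀ r : ℝ, (∀ j, j ≤ i → mu P.n P.ρ τ j ≤ r) →
      |∑ j ∈ range k, (a * v j) * u j - ∑ j ∈ range k, (a * v j) * w j| ≤ P.B * (2 * r) := by
    intro r hr
    rw [hdiff]
    calc |∑ j ∈ range k, (a * v j) * (u j - w j)|
        ≤ ∑ j ∈ range k, |(a * v j) * (u j - w j)| := abs_sum_le_sum_abs _ _
      _ ≤ ∑ j ∈ range k, |a * v j| * (2 * r) := by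
        apply sum_le_sum
        intro j hj
        have hjk := mem_range.mp hj
        rw [abs_mul]
        rcases Nat.lt_or_ge i j with h1 | h1
        · rw [hvi.2 j h1]; simp
        · apply mul_le_mul_of_nonneg_left _ (abs_nonneg _)
          have h2 := (hcore j hjk).2
          have h3 := hr j h1
          linarith
      _ = (∑ j ∈ range k, |a * v j|) * (2 * r) := by rw [sum_mul]
      _ ≤ P.B * (2 * r) := by
        apply mul_le_mul_of_nonneg_right hB
        have h1 := hr 0 (Nat.zero_le i)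
        have h2 := mu_pos (n := P.n) (τ := τ) hρ0 0
        linarith
  have habs : |∑ j ∈ range k, (a * v j) * w j| = |a| * |ev P.n v w| := by rw [hev, abs_mul]
  rw [habs]
  have hev0 : 0 < |ev P.n v w| := abs_pos.mpr hevne
  have hae : |ev P.n v w| ≤ |a| * |ev P.n v w| := by nlinarith
  have hmm0 : 0 < mm P.n P.ρ τ i := mm_pos hρ0 _
  have hdmm : dl P.n P.ρ ≤ P.ρ * mm P.n P.ρ τ i := dl_le_mm hρ0 hρ1 (by omega)
  rcases Nat.eq_zero_or_pos i with hi0 | hi0
  · subst hi0
    have hev1 : |ev P.n v w| = 1 := by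
      rw [ev_eq (by omega) hvi]
      simp only [lam, range_zero, sum_empty, neg_zero, sub_zero]
      rw [h.2.1, hc]
    have h1 := herr (dl P.n P.ρ) (by
      intro j hj
      have : j = 0 := by omega
      subst this
      unfold mu
      rw [h.2.2.1]; simp)
    rw [hev1] at hae ⊢
    constructor
    · nlinarith
    · nlinarith
  · have hip := (hcore i hik).1
    have hok := h.2.2.2.2 i hi0 hip
    rcases hτ : τ i with _ | _
    · have h1 := (hok.2.2.2 hτ).2 v hv hvi
      rw [← ev_eq (n := P.n) (by omega) hvi] at h1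
      have h2 := herr (P.ρ * mm P.n P.ρ τ i) (by
        intro j hj
        rcases Nat.eq_or_lt_of_le hj with h3 | h3
        · subst h3
          have : mu P.n P.ρ τ j = dl P.n P.ρ := by unfold mu; simp [hτ]
          rw [this]; exact hdmm
        · exact mu_le_mm hρ0 hρ1 h3 (by omega))
      have h4 : P.B * (2 * (P.ρ * mm P.n P.ρ τ i)) = (16 * P.B * P.ρ) * mm P.n P.ρ τ i / 8 := by ring
      constructor
      · nlinarith
      · nlinarith
    · obtain ⟨v', hv', hvl', he⟩ := hok.2.2.1 hτ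
      have h1 : ev P.n v w = lam v' w i - lam v w i := by
        rw [ev_eq (by omega) hvi, he]
      have hne' : lam v' w i ≠ lam v w i := by
        intro h0
        apply hevne
        rw [h1, h0, sub_self]
      have h2 := sepS h (by omega) hc (j := i) (by omega) (by omega) (by omega) hv' hv hvl' hvi hne'
      rw [← h1] at h2
      have h3 := herr (mm P.n P.ρ τ i) (by
        intro j hj
        rcases Nat.eq_or_lt_of_le hj with h3 | h3
        · subst h3
          exact mu_le_mm_self hρ0 hρ1 (by omega)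
        · have := mu_le_mm (τ := τ) hρ0 hρ1 h3 (show i ≤ P.n by omega)
          nlinarith)
      have h5 : mm P.n P.ρ τ i ≤ P.B * mm P.n P.ρ τ i := by nlinarith
      constructor
      · nlinarith
      · nlinarith

/-- the form we use: signs -/
theorem core_sign' (h : Valid P c t0 p w τ) (hc : |c| = 1)
    (hpk : p ≤ k) (hkn : k ≤ P.n)
    (hcore : ∀ j, j < k → j < p ∧ |u j - w j| ≤ 2 * mu P.n P.ρ τ j)
    {v : ℕ → ℝ} (hv : v ∈ P.V) {i : ℕ} (hvi : HasLevel v i) (hik : i < k) {a : ℝ} (ha : 1 ≤ |a|)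
    (hB : ∑ j ∈ range k, |a * v j| ≤ P.B) (hpos : 0 < ∑ j ∈ range k, (a * v j) * w j) :
    dl P.n P.ρ ≤ ∑ j ∈ range k, (a * v j) * u j := by
  obtain ⟨h1, h2⟩ := core_sign h hc hpk hkn hcore hv hvi hik ha hB hpos.ne'
  rw [abs_of_pos hpos] at h1 h2
  have := abs_le.mp h1
  linarith

end

end Crest.Agent.S0122H
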